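import Mathlib.Logic.Basic

/-!
First-order set theory in plain form: formulas over the language with one binary relation,
models of ZF, and the two statements PP and DC inside a model.
-/

namespace Vale.Agent.P323

universe u

/-- First-order formulas of the language of set theory, with de Bruijn variables:
variable `0` is the one bound by the innermost `ex`. Connectives `neg`, `and`, `ex` suffice. -/
inductive Fml : Type
  | mem : Nat → Nat → Fml
  | eq : Nat → Nat → Fml
  | neg : Fml → Fml
  | and : Fml → Fml → Fml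
  | ex : Fml → Fml

variable {M : Type u}

/-- Put a new value in front of an assignment of the variables. -/
def push (a : M) (v : Nat → M) : Nat → M
  | 0 => a
  | n + 1 => v n

/-- Tarski satisfaction of a formula in the structure `(M, E)` under the assignment `v`. -/
def Sat (E : M → M → Prop) : Fml → (Nat → M) → Prop
  | .mem i j, v => E (v i) (v j)
  | .eq i j, v => v i = v j
  | .neg φ, v => ¬ Sat E φ v
  | .and φ ψ, v => Sat E φ v ∧ Sat E ψ v
  | .ex φ, v => ∃ a, Sat E φ (push a v)

/-- `(M, E)` is a model of ZF: Extensionality, Foundation, Pairing, Union, Power set, Infinity,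
and the Separation and Replacement schemata for all first-order formulas, the assignment `v`
supplying the parameters. -/
structure IsZF (E : M → M → Prop) : Prop where
  ext : ∀ a b, (∀ x, E x a ↔ E x b) → a = b
  found : ∀ a, (∃ x, E x a) → ∃ x, E x a ∧ ∀ y, E y x → ¬ E y a
  pairing : ∀ a b, ∃ c, ∀ x, E x c ↔ x = a ∨ x = b
  union : ∀ a, ∃ c, ∀ x, E x c ↔ ∃ y, E y a ∧ E x y
  power : ∀ a, ∃ c, ∀ x, E x c ↔ ∀ y, E y x → E y a
  infinity : ∃ w, (∃ z, E z w ∧ ∀ y, ¬ E y z) ∧
    ∀ x, E x w → ∃ s, E s w ∧ ∀ y, E y s ↔ E y x ∨ y = x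
  sep : ∀ (φ : Fml) (v : Nat → M) (a : M), ∃ b, ∀ x, E x b ↔ E x a ∧ Sat E φ (push x v)
  repl : ∀ (φ : Fml) (v : Nat → M) (a : M),
    (∀ x, E x a → ∀ y y', Sat E φ (push y (push x v)) → Sat E φ (push y' (push x v)) → y = y') →
    ∃ b, ∀ y, E y b ↔ ∃ x, E x a ∧ Sat E φ (push y (push x v))

/-- `p` is the Kuratowski ordered pair `{{a}, {a, b}}` in `(M, E)`. -/
def IsOPair (E : M → M → Prop) (p a b : M) : Prop :=
  ∀ z, E z p ↔ (∀ x, E x z ↔ x = a) ∨ (∀ x, E x z ↔ x = a ∨ x = b)

/-- The pair `(x, y)` belongs to the set `f` of `(M, E)`. -/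
def App (E : M → M → Prop) (f x y : M) : Prop :=
  ∃ p, E p f ∧ IsOPair E p x y

/-- `f` is, in `(M, E)`, a function from `X` to `Y`. -/
def IsFun (E : M → M → Prop) (f X Y : M) : Prop :=
  (∀ p, E p f → ∃ x y, E x X ∧ E y Y ∧ IsOPair E p x y) ∧
  (∀ x, E x X → ∃ y, App E f x y) ∧
  (∀ x y y', App E f x y → App E f x y' → y = y')

/-- `f` is, in `(M, E)`, a function from `X` onto `Y`. -/
def IsSurj (E : M → M → Prop) (f X Y : M) : Prop :=
  IsFun E f X Y ∧ ∀ y, E y Y → ∃ x, App E f x y

/-- `f` is, in `(M, E)`, an injective function from `X` to `Y`. -/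
def IsInj (E : M → M → Prop) (f X Y : M) : Prop :=
  IsFun E f X Y ∧ ∀ x x' y, App E f x y → App E f x' y → x = x'

/-- The Partition Principle in `(M, E)`: whenever `Y` is a surjective image of `X`,
there is an injection of `Y` into `X`. -/
def PP (E : M → M → Prop) : Prop :=
  ∀ X Y f, IsSurj E f X Y → ∃ j, IsInj E j Y X

/-- `z` has no elements in `(M, E)`. -/
def IsEmp (E : M → M → Prop) (z : M) : Prop := ∀ y, ¬ E y z

/-- `s` is the set `x ∪ {x}` in `(M, E)`. -/
def IsSucc (E : M → M → Prop) (s x : M) : Prop := ∀ y, E y s ↔ E y x ∨ y = x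

/-- `w` contains the empty set and is closed under `x ↦ x ∪ {x}`. -/
def IsInductive (E : M → M → Prop) (w : M) : Prop :=
  (∃ z, E z w ∧ IsEmp E z) ∧ ∀ x, E x w → ∃ s, E s w ∧ IsSucc E s x

/-- `w` is the set of natural numbers of `(M, E)`: the least inductive set. -/
def IsOmega (E : M → M → Prop) (w : M) : Prop :=
  IsInductive E w ∧ ∀ w', IsInductive E w' → ∀ n, E n w → E n w'

/-- The Principle of Dependent Choices in `(M, E)`: for a nonempty set `X` and a set `R` of
ordered pairs such that every `x` in `X` has some `y` in `X` with `(x, y)` in `R`, there is a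
function `f` from the natural numbers to `X` with `(f n, f (n + 1))` in `R` for every `n`. -/
def DC (E : M → M → Prop) : Prop :=
  ∀ X R, (∃ x, E x X) → (∀ x, E x X → ∃ y, E y X ∧ App E R x y) →
    ∃ w f, IsOmega E w ∧ IsFun E f w X ∧
      ∀ n s x y, E n w → IsSucc E s n → App E f n x → App E f s y → App E R x y

end Vale.Agent.P323
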