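import Vale.Agent.P323.Defs

/-!
Ordinals in a model, and the partition principle for surjections onto ordinals.
-/

namespace Vale.Agent.P323

universe u

variable {M : Type u}

/-- `κ` is a von Neumann ordinal of `(M, E)`: a transitive set linearly ordered by membership. -/
def IsOrdinal (E : M → M → Prop) (κ : M) : Prop :=
  (∀ y, E y κ → ∀ z, E z y → E z κ) ∧ ∀ y, E y κ → ∀ z, E z κ → E y z ∨ y = z ∨ E z y

/-- The Partition Principle for surjections onto ordinals (the Hartogs number of every set equals
its Lindenbaum number): if `κ` is a surjective image of `A`, then `κ` injects into `A`. -/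
def PPOrd (E : M → M → Prop) : Prop :=
  ∀ A κ f, IsOrdinal E κ → IsSurj E f A κ → ∃ j, IsInj E j κ A

end Vale.Agent.P323
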