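import Vale.Agent.P323.Defs
import Mathlib.Tactic.Common

set_option linter.unusedSectionVars false

/-!
Definability with parameters, handled by instance search.
-/

namespace Vale.Agent.P323

universe u

/-- A model of ZF as a class, to use the membership sign in proofs. -/
class ZFM (M : Type u) where
  E : M → M → Prop
  isZF : IsZF E

instance (M : Type u) [ZFM M] : Membership M M := ⟨fun y x => ZFM.E x y⟩

variable {M : Type u} [ZFM M]

/-- Terms of the two-sorted formulas: `l i` is a variable, `r j` a parameter. -/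
inductive Tm : Type
  | l : Nat → Tm
  | r : Nat → Tm

/-- Formulas with variables and parameters kept apart. -/
inductive Fm : Type
  | mem : Tm → Tm → Fm
  | eq : Tm → Tm → Fm
  | neg : Fm → Fm
  | and : Fm → Fm → Fm
  | ex : Fm → Fm

/-- The value of a term. -/
def Tm.val (v u : Nat → M) : Tm → M
  | .l i => v i
  | .r j => u j

/-- Semantics of two-sorted formulas. -/
def Sat2 : Fm → (Nat → M) → (Nat → M) → Prop
  | .mem s t, v, u => ZFM.E (Tm.val v u s) (Tm.val v u t)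
  | .eq s t, v, u => Tm.val v u s = Tm.val v u t
  | .neg φ, v, u => ¬ Sat2 φ v u
  | .and φ ψ, v, u => Sat2 φ v u ∧ Sat2 ψ v u
  | .ex φ, v, u => ∃ a, Sat2 φ (push a v) u

/-- Rename the parameters of a term. -/
def Tm.mapR (ρ : Nat → Nat) : Tm → Tm
  | .l i => .l i
  | .r j => .r (ρ j)

/-- Rename the parameters of a formula. -/
def Fm.mapR (ρ : Nat → Nat) : Fm → Fm
  | .mem s t => .mem (s.mapR ρ) (t.mapR ρ)
  | .eq s t => .eq (s.mapR ρ) (t.mapR ρ)
  | .neg φ => .neg (Fm.mapR ρ φ)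
  | .and φ ψ => .and (Fm.mapR ρ φ) (Fm.mapR ρ ψ)
  | .ex φ => .ex (Fm.mapR ρ φ)

theorem Tm.val_mapR (ρ : Nat → Nat) (v u : Nat → M) (t : Tm) :
    Tm.val v u (t.mapR ρ) = Tm.val v (fun j => u (ρ j)) t := by
  cases t <;> rfl

theorem Sat2_mapR (ρ : Nat → Nat) (φ : Fm) :
    ∀ (v u : Nat → M), Sat2 (Fm.mapR ρ φ) v u ↔ Sat2 φ v (fun j => u (ρ j)) := by
  induction φ with
  | mem s t => intro v u; simp only [Fm.mapR, Sat2, Tm.val_mapR]
  | eq s t => intro v u; simp only [Fm.mapR, Sat2, Tm.val_mapR]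
  | neg φ ih => intro v u; simp only [Fm.mapR, Sat2, ih]
  | and φ ψ ih1 ih2 => intro v u; simp only [Fm.mapR, Sat2, ih1, ih2]
  | ex φ ih => intro v u; simp only [Fm.mapR, Sat2, ih]

/-- Lift a renaming under a binder. -/
def lift (ρ : Nat → Nat) : Nat → Nat
  | 0 => 0
  | n + 1 => ρ n + 1

/-- Rename the variables of a term. -/
def Tm.ren (ρ : Nat → Nat) : Tm → Tm
  | .l i => .l (ρ i)
  | .r j => .r j

/-- Rename the variables of a formula. -/
def Fm.ren : (Nat → Nat) → Fm → Fm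
  | ρ, .mem s t => .mem (s.ren ρ) (t.ren ρ)
  | ρ, .eq s t => .eq (s.ren ρ) (t.ren ρ)
  | ρ, .neg φ => .neg (Fm.ren ρ φ)
  | ρ, .and φ ψ => .and (Fm.ren ρ φ) (Fm.ren ρ ψ)
  | ρ, .ex φ => .ex (Fm.ren (lift ρ) φ)

theorem Tm.val_ren (ρ : Nat → Nat) (v u : Nat → M) (t : Tm) :
    Tm.val v u (t.ren ρ) = Tm.val (fun i => v (ρ i)) u t := by
  cases t <;> rfl

theorem push_lift (ρ : Nat → Nat) (a : M) (v : Nat → M) :
    (fun i => push a v (lift ρ i)) = push a (fun i => v (ρ i)) := by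
  funext i; cases i <;> rfl

theorem Sat2_ren (φ : Fm) :
    ∀ (ρ : Nat → Nat) (v u : Nat → M), Sat2 (Fm.ren ρ φ) v u ↔ Sat2 φ (fun i => v (ρ i)) u := by
  induction φ with
  | mem s t => intro ρ v u; simp only [Fm.ren, Sat2, Tm.val_ren]
  | eq s t => intro ρ v u; simp only [Fm.ren, Sat2, Tm.val_ren]
  | neg φ ih => intro ρ v u; simp only [Fm.ren, Sat2, ih]
  | and φ ψ ih1 ih2 => intro ρ v u; simp only [Fm.ren, Sat2, ih1, ih2]
  | ex φ ih => intro ρ v u; simp only [Fm.ren, Sat2, ih, push_lift]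

/-- Compile a term to a variable index. -/
def Tm.cmp (a b : Nat → Nat) : Tm → Nat
  | .l i => a i
  | .r j => b j

/-- Compile a two-sorted formula to a plain one. -/
def Fm.cmp : (Nat → Nat) → (Nat → Nat) → Fm → Fml
  | a, b, .mem s t => .mem (s.cmp a b) (t.cmp a b)
  | a, b, .eq s t => .eq (s.cmp a b) (t.cmp a b)
  | a, b, .neg φ => .neg (Fm.cmp a b φ)
  | a, b, .and φ ψ => .and (Fm.cmp a b φ) (Fm.cmp a b ψ)
  | a, b, .ex φ => .ex (Fm.cmp (lift a) (fun j => b j + 1) φ)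

theorem Tm.val_cmp (a b : Nat → Nat) (z : Nat → M) (t : Tm) :
    z (t.cmp a b) = Tm.val (fun i => z (a i)) (fun j => z (b j)) t := by
  cases t <;> rfl

theorem Sat_cmp (φ : Fm) :
    ∀ (a b : Nat → Nat) (z : Nat → M),
      Sat (ZFM.E : M → M → Prop) (Fm.cmp a b φ) z ↔ Sat2 φ (fun i => z (a i)) (fun j => z (b j)) := by
  induction φ with
  | mem s t => intro a b z; simp only [Fm.cmp, Sat, Sat2, Tm.val_cmp]
  | eq s t => intro a b z; simp only [Fm.cmp, Sat, Sat2, Tm.val_cmp]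
  | neg φ ih => intro a b z; simp only [Fm.cmp, Sat, Sat2, ih]
  | and φ ψ ih1 ih2 => intro a b z; simp only [Fm.cmp, Sat, Sat2, ih1, ih2]
  | ex φ ih =>
    intro a b z
    simp only [Fm.cmp, Sat, Sat2, ih]
    exact exists_congr fun c => by rw [push_lift]; exact Iff.rfl

/-- A predicate of assignments is definable from parameters. -/
class Dfn (P : (Nat → M) → Prop) : Prop where
  out : ∃ (φ : Fm) (u : Nat → M), ∀ v, Sat2 φ v u ↔ P v

theorem Dfn.congr {P Q : (Nat → M) → Prop} (h : Dfn Q) (e : ∀ v, P v ↔ Q v) : Dfn P := by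
  obtain ⟨φ, u, hφ⟩ := h.out
  exact ⟨⟨φ, u, fun v => (hφ v).trans (e v).symm⟩⟩

theorem Dfn.ren (ρ : Nat → Nat) {P : (Nat → M) → Prop} (h : Dfn P) :
    Dfn (fun v => P (fun i => v (ρ i))) := by
  obtain ⟨φ, u, hφ⟩ := h.out
  exact ⟨⟨Fm.ren ρ φ, u, fun v => (Sat2_ren φ ρ v u).trans (hφ _)⟩⟩

/-- The shift of an assignment. -/
abbrev tail (w : Nat → M) : Nat → M := fun i => w (i + 1)

instance Dfn.not {P : (Nat → M) → Prop} [h : Dfn P] : Dfn (fun v => ¬ P v) := by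
  obtain ⟨φ, u, hφ⟩ := h.out
  exact ⟨⟨.neg φ, u, fun v => not_congr (hφ v)⟩⟩

/-- Interleave two parameter lists. -/
def zipP (u₁ u₂ : Nat → M) (n : Nat) : M :=
  if n % 2 = 0 then u₁ (n / 2) else u₂ (n / 2)

theorem zipP_left (u₁ u₂ : Nat → M) : (fun j => zipP u₁ u₂ (2 * j)) = u₁ := by
  funext j
  have h1 : (2 * j) % 2 = 0 := by omega
  have h2 : (2 * j) / 2 = j := by omega
  simp only [zipP, h1, h2, if_true]

theorem zipP_right (u₁ u₂ : Nat → M) : (fun j => zipP u₁ u₂ (2 * j + 1)) = u₂ := by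
  funext j
  have h1 : ¬ (2 * j + 1) % 2 = 0 := by omega
  have h2 : (2 * j + 1) / 2 = j := by omega
  simp only [zipP, h1, h2, if_false]

instance Dfn.and {P Q : (Nat → M) → Prop} [h₁ : Dfn P] [h₂ : Dfn Q] :
    Dfn (fun v => P v ∧ Q v) := by
  obtain ⟨φ, u₁, hφ⟩ := h₁.out
  obtain ⟨ψ, u₂, hψ⟩ := h₂.out
  refine ⟨⟨.and (Fm.mapR (fun j => 2 * j) φ) (Fm.mapR (fun j => 2 * j + 1) ψ), zipP u₁ u₂, fun v => ?_⟩⟩
  simp only [Sat2, Sat2_mapR, zipP_left, zipP_right, hφ, hψ]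

instance Dfn.ex {Q : M → (Nat → M) → Prop} [h : Dfn (fun w => Q (w 0) (tail w))] :
    Dfn (fun v => ∃ a, Q a v) := by
  obtain ⟨φ, u, hφ⟩ := h.out
  exact ⟨⟨.ex φ, u, fun v => exists_congr fun a => hφ (push a v)⟩⟩

instance Dfn.or {P Q : (Nat → M) → Prop} [h₁ : Dfn P] [h₂ : Dfn Q] :
    Dfn (fun v => P v ∨ Q v) :=
  Dfn.congr (Q := fun v => ¬ (¬ P v ∧ ¬ Q v)) inferInstance (fun _ => by tauto)

instance Dfn.imp {P Q : (Nat → M) → Prop} [h₁ : Dfn P] [h₂ : Dfn Q] :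
    Dfn (fun v => P v → Q v) :=
  Dfn.congr (Q := fun v => ¬ (P v ∧ ¬ Q v)) inferInstance (fun _ => by tauto)

instance Dfn.iff {P Q : (Nat → M) → Prop} [h₁ : Dfn P] [h₂ : Dfn Q] :
    Dfn (fun v => P v ↔ Q v) :=
  Dfn.congr (Q := fun v => (P v → Q v) ∧ (Q v → P v)) inferInstance (fun _ => by tauto)

instance Dfn.all {Q : M → (Nat → M) → Prop} [h : Dfn (fun w => Q (w 0) (tail w))] :
    Dfn (fun v => ∀ a, Q a v) :=
  Dfn.congr (Q := fun v => ¬ ∃ a, ¬ Q a v)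
    (by
      haveI : Dfn (fun w => ¬ Q (w 0) (tail w)) := inferInstance
      exact inferInstance)
    (fun _ => by simp only [not_exists, not_not])

instance Dfn.const (p : Prop) : Dfn (fun _ : Nat → M => p) := by
  by_cases hp : p
  · exact ⟨⟨.eq (.l 0) (.l 0), fun _ => (ZFM.isZF (M := M)).infinity.choose, fun v => by simp [Sat2, Tm.val, hp]⟩⟩
  · exact ⟨⟨.neg (.eq (.l 0) (.l 0)), fun _ => (ZFM.isZF (M := M)).infinity.choose, fun v => by simp [Sat2, Tm.val, hp]⟩⟩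

/-- A term is definable: its graph is definable. -/
class DfnT (t : (Nat → M) → M) : Prop where
  out : Dfn (fun v => v 0 = t (tail v))

instance DfnT.var (i : Nat) : DfnT (fun v : Nat → M => v i) :=
  ⟨⟨⟨.eq (.l 0) (.l (i + 1)), fun _ => (ZFM.isZF (M := M)).infinity.choose, fun _ => Iff.rfl⟩⟩⟩

instance DfnT.const (p : M) : DfnT (fun _ : Nat → M => p) :=
  ⟨⟨⟨.eq (.l 0) (.r 0), fun _ => p, fun _ => Iff.rfl⟩⟩⟩

/-- Renaming for a definable term. -/
theorem DfnT.bind {t : (Nat → M) → M} (h : DfnT t) (k d : Nat) :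
    Dfn (fun w => w k = t (fun i => w (i + d))) :=
  Dfn.ren (fun n => match n with | 0 => k | n + 1 => n + d) h.out

instance Dfn.mem {s t : (Nat → M) → M} [hs : DfnT s] [ht : DfnT t] :
    Dfn (fun v => s v ∈ t v) := by
  have h1 : Dfn (fun w : Nat → M => w 1 = s (fun i => w (i + 2))) := hs.bind 1 2
  have h2 : Dfn (fun w : Nat → M => w 0 = t (fun i => w (i + 2))) := ht.bind 0 2
  have h3 : Dfn (fun w : Nat → M => w 1 ∈ w 0) :=
    ⟨⟨.mem (.l 1) (.l 0), fun _ => (ZFM.isZF (M := M)).infinity.choose, fun _ => Iff.rfl⟩⟩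
  have h4 : Dfn (fun w : Nat → M => w 1 = s (fun i => w (i + 2)) ∧ w 0 = t (fun i => w (i + 2)) ∧ w 1 ∈ w 0) :=
    @Dfn.and _ _ _ _ h1 (@Dfn.and _ _ _ _ h2 h3)
  have h5 : Dfn (fun v : Nat → M => ∃ a b, a = s v ∧ b = t v ∧ a ∈ b) :=
    @Dfn.ex _ _ (fun a v => ∃ b, a = s v ∧ b = t v ∧ a ∈ b)
      (@Dfn.ex _ _ (fun b w => w 0 = s (tail w) ∧ b = t (tail w) ∧ w 0 ∈ b) h4)
  exact h5.congr (fun v => by simp)

instance Dfn.eq {s t : (Nat → M) → M} [hs : DfnT s] [ht : DfnT t] :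
    Dfn (fun v => s v = t v) := by
  have h1 : Dfn (fun w : Nat → M => w 1 = s (fun i => w (i + 2))) := hs.bind 1 2
  have h2 : Dfn (fun w : Nat → M => w 0 = t (fun i => w (i + 2))) := ht.bind 0 2
  have h3 : Dfn (fun w : Nat → M => w 1 = w 0) :=
    ⟨⟨.eq (.l 1) (.l 0), fun _ => (ZFM.isZF (M := M)).infinity.choose, fun _ => Iff.rfl⟩⟩
  have h4 : Dfn (fun w : Nat → M => w 1 = s (fun i => w (i + 2)) ∧ w 0 = t (fun i => w (i + 2)) ∧ w 1 = w 0) :=
    @Dfn.and _ _ _ _ h1 (@Dfn.and _ _ _ _ h2 h3)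
  have h5 : Dfn (fun v : Nat → M => ∃ a b, a = s v ∧ b = t v ∧ a = b) :=
    @Dfn.ex _ _ (fun a v => ∃ b, a = s v ∧ b = t v ∧ a = b)
      (@Dfn.ex _ _ (fun b w => w 0 = s (tail w) ∧ b = t (tail w) ∧ w 0 = b) h4)
  exact h5.congr (fun v => by simp)

instance Dfn.ne {s t : (Nat → M) → M} [hs : DfnT s] [ht : DfnT t] :
    Dfn (fun v => s v ≠ t v) :=
  Dfn.not

/-- Definability of a term from the definability of the graph of a binary function. -/
theorem DfnT.comp2 (f : M → M → M) (hf : Dfn (fun v : Nat → M => v 0 = f (v 1) (v 2)))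
    {s t : (Nat → M) → M} (hs : DfnT s) (ht : DfnT t) : DfnT (fun v => f (s v) (t v)) := by
  have h1 : Dfn (fun w : Nat → M => w 1 = s (fun i => w (i + 3))) := hs.bind 1 3
  have h2 : Dfn (fun w : Nat → M => w 0 = t (fun i => w (i + 3))) := ht.bind 0 3
  have h3 : Dfn (fun w : Nat → M => w 2 = f (w 1) (w 0)) :=
    Dfn.ren (fun n => match n with | 0 => 2 | 1 => 1 | _ => 0) hf
  have h4 : Dfn (fun w : Nat → M => w 1 = s (fun i => w (i + 3)) ∧ w 0 = t (fun i => w (i + 3)) ∧ w 2 = f (w 1) (w 0)) :=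
    @Dfn.and _ _ _ _ h1 (@Dfn.and _ _ _ _ h2 h3)
  have h5 : Dfn (fun v : Nat → M => ∃ a b, a = s (tail v) ∧ b = t (tail v) ∧ v 0 = f a b) :=
    @Dfn.ex _ _ (fun a v => ∃ b, a = s (tail v) ∧ b = t (tail v) ∧ v 0 = f a b)
      (@Dfn.ex _ _ (fun b w => w 0 = s (tail (tail w)) ∧ b = t (tail (tail w)) ∧ w 1 = f (w 0) b) h4)
  exact ⟨h5.congr (fun v => by simp)⟩

/-- Separation for definable predicates. -/
theorem sep_ex (P : M → Prop) [h : Dfn (fun v => P (v 0))] (a : M) :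
    ∃ b : M, ∀ x, x ∈ b ↔ x ∈ a ∧ P x := by
  obtain ⟨φ, u, hφ⟩ := h.out
  obtain ⟨b, hb⟩ := (ZFM.isZF (M := M)).sep (Fm.cmp (fun _ => 0) (fun j => j + 1) φ) u a
  refine ⟨b, fun x => (hb x).trans (and_congr_right fun _ => ?_)⟩
  rw [Sat_cmp]
  exact hφ _

/-- Replacement for definable functional relations. -/
theorem repl_ex (P : M → M → Prop) [h : Dfn (fun v => P (v 0) (v 1))] (a : M)
    (hf : ∀ x, x ∈ a → ∀ y y', P x y → P x y' → y = y') :
    ∃ b : M, ∀ y, y ∈ b ↔ ∃ x, x ∈ a ∧ P x y := by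
  obtain ⟨φ, u, hφ⟩ := h.out
  have key : ∀ x y : M,
      Sat (ZFM.E : M → M → Prop) (Fm.cmp (fun n => match n with | 0 => 1 | _ => 0) (fun j => j + 2) φ)
        (push y (push x u)) ↔ P x y := by
    intro x y
    rw [Sat_cmp]
    exact hφ _
  obtain ⟨b, hb⟩ := (ZFM.isZF (M := M)).repl
    (Fm.cmp (fun n => match n with | 0 => 1 | _ => 0) (fun j => j + 2) φ) u a
    (fun x hx y y' h1 h2 => hf x hx y y' ((key x y).1 h1) ((key x y').1 h2))
  exact ⟨b, fun y => (hb y).trans (exists_congr fun x => and_congr_right fun _ => key x y)⟩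

example (X : M) : Dfn (fun v : Nat → M => ∃ y, y ∈ v 0 ∧ ∀ z, z ∈ y → z ∈ X ∧ v 1 = z) := inferInstance

end Vale.Agent.P323
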