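import Vale.Agent.P323.Ord

/-!
Hartogs numbers, and definable functions.
-/

set_option linter.unusedSectionVars false
set_option synthInstance.maxSize 100000
set_option synthInstance.maxHeartbeats 2000000

namespace Vale.Agent.P323

universe u

variable {M : Type u} [ZFM M]

theorem DfnT.comp1 (f : M → M) (hf : Dfn (fun v : Nat → M => v 0 = f (v 1)))
    {s : (Nat → M) → M} (hs : DfnT s) : DfnT (fun v => f (s v)) := by
  have h1 : Dfn (fun w : Nat → M => w 0 = s (fun i => w (i + 2))) := hs.bind 0 2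
  have h3 : Dfn (fun w : Nat → M => w 1 = f (w 0)) :=
    Dfn.ren (P := fun v : Nat → M => v 0 = f (v 1)) (fun n => match n with | 0 => 1 | _ => 0) hf
  have h4 : Dfn (fun w : Nat → M => w 0 = s (fun i => w (i + 2)) ∧ w 1 = f (w 0)) :=
    @Dfn.and _ _ _ _ h1 h3
  have h5 : Dfn (fun v : Nat → M => ∃ a, a = s (tail v) ∧ v 0 = f a) :=
    @Dfn.ex _ _ (fun a v => a = s (tail v) ∧ v 0 = f a) h4
  exact ⟨h5.congr (fun v => by simp)⟩

/-- A Lean function on the model with definable graph. -/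
class DfnF (G : M → M) : Prop where
  out : Dfn (fun v : Nat → M => v 0 = G (v 1))

instance DfnT.ofF {G : M → M} [h : DfnF G] {s : (Nat → M) → M} [hs : DfnT s] :
    DfnT (fun v => G (s v)) :=
  DfnT.comp1 G h.out hs

/-- The code of an ordinal injected into `X`: the order carried over to `X`. -/
abbrev CodeRel (X r α : M) : Prop :=
  IsOrd α ∧ ∃ g, InjRel g α X ∧
    ∀ p, p ∈ r ↔ ∃ c d a b, OLe c d ∧ opair c a ∈ g ∧ opair d b ∈ g ∧ p = opair a b

theorem code_sub {X r α α' : M} (h : CodeRel X r α) (h' : CodeRel X r α') :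
    ∀ a, a ∈ α → a ∈ α' := by
  obtain ⟨hα, g, hg, hr⟩ := h
  obtain ⟨hα', g', hg', hr'⟩ := h'
  have key : ∀ a, a ∈ α → ∃ y, opair a y ∈ g ∧ opair a y ∈ g' := by
    by_contra hno
    have hne : ∃ x, x ∈ sepS (fun a => ¬ ∃ y, opair a y ∈ g ∧ opair a y ∈ g') α := by
      simp only [not_forall] at hno
      obtain ⟨a, ha, hy⟩ := hno
      exact ⟨a, by rw [mem_sepS]; exact ⟨ha, hy⟩⟩
    obtain ⟨a, ha, hmin⟩ := ord_min
      (fun x hx => hα.of_mem ((mem_sepS _ _ _).1 hx).1) hne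
    rw [mem_sepS] at ha
    obtain ⟨haα, hay⟩ := ha
    have good : ∀ b, b ∈ a → ∃ y, opair b y ∈ g ∧ opair b y ∈ g' := by
      intro b hb
      by_contra hbad
      have hbS : b ∈ sepS (fun a => ¬ ∃ y, opair a y ∈ g ∧ opair a y ∈ g') α := by
        rw [mem_sepS]; exact ⟨hα.1 a haα b hb, hbad⟩
      rcases hmin b hbS with h1 | h1
      · exact mem_asymm' h1 hb
      · subst h1; exact mem_irrefl' _ hb
    obtain ⟨y, hy⟩ := hg.1.2.1 a haα
    have hyy : opair y y ∈ r := (hr _).2 ⟨a, a, y, y, Or.inr rfl, hy, hy, rfl⟩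
    obtain ⟨c', d', a', b', _, h1, h2, e⟩ := (hr' _).1 hyy
    obtain ⟨e1, e2⟩ := opair_inj e
    subst e1
    have ha'α' := (FunRel.mem hg'.1 h1).1
    rcases ord_tricho (hα'.of_mem ha'α') (hα.of_mem haα) with hc | hc | hc
    · obtain ⟨y', h3, h4⟩ := good c' hc
      have e3 : y' = y := hg'.1.2.2 c' y' y h4 h1
      rw [e3] at h3
      have e4 : c' = a := hg.2 c' a y h3 hy
      rw [e4] at hc
      exact mem_irrefl' _ hc
    · subst hc
      exact hay ⟨y, hy, h1⟩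
    · have haα' : a ∈ α' := hα'.1 c' ha'α' a hc
      obtain ⟨y'', hy''⟩ := hg'.1.2.1 a haα'
      have h5 : opair y'' y ∈ r := (hr' _).2 ⟨a, c', y'', y, Or.inl hc, hy'', h1, rfl⟩
      obtain ⟨c, d, a2, b2, hcd, h6, h7, e2'⟩ := (hr _).1 h5
      obtain ⟨e5, e6⟩ := opair_inj e2'
      subst e5
      subst e6
      have e7 : d = a := hg.2 d a y h7 hy
      rw [e7] at hcd
      rcases hcd with hcd | hcd
      · obtain ⟨y3, h8, h9⟩ := good c hcd
        have e8 : y3 = y'' := hg.1.2.2 c y3 y'' h8 h6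
        rw [e8] at h9
        have e9 : c = a := hg'.2 c a y'' h9 hy''
        rw [e9] at hcd
        exact mem_irrefl' _ hcd
      · rw [hcd] at h6
        have e8 : y'' = y := hg.1.2.2 a y'' y h6 hy
        rw [e8] at hy''
        have e9 : a = c' := hg'.2 a c' y hy'' h1
        rw [e9] at hc
        exact mem_irrefl' _ hc
  intro a ha
  obtain ⟨y, _, hy⟩ := key a ha
  exact (FunRel.mem hg'.1 hy).1

theorem exists_hartogs (X : M) : ∃ h : M, ∀ α, α ∈ h ↔ IsOrd α ∧ ∃ g, InjRel g α X := by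
  obtain ⟨h, hh⟩ := repl_ex (CodeRel X) (pow (prod X X)) (by
    intro r _ y y' h1 h2
    exact ext_mem fun a => ⟨code_sub h1 h2 a, code_sub h2 h1 a⟩)
  refine ⟨h, fun α => (hh α).trans ?_⟩
  constructor
  · rintro ⟨r, _, hα, g, hg, _⟩
    exact ⟨hα, g, hg⟩
  · rintro ⟨hα, g, hg⟩
    refine ⟨sepS (fun p => ∃ c d a b, OLe c d ∧ opair c a ∈ g ∧ opair d b ∈ g ∧ p = opair a b)
      (prod X X), ?_, hα, g, hg, ?_⟩
    · rw [mem_pow]
      intro p hp
      exact ((mem_sepS _ _ _).1 hp).1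
    · intro p
      rw [mem_sepS]
      refine ⟨fun hp => hp.2, fun hp => ⟨?_, hp⟩⟩
      obtain ⟨c, d, a, b, _, h1, h2, rfl⟩ := hp
      exact opair_mem_prod.2 ⟨(FunRel.mem hg.1 h1).2, (FunRel.mem hg.1 h2).2⟩

/-- The Hartogs number of `X`. -/
noncomputable def hart (X : M) : M := (exists_hartogs X).choose

theorem mem_hart (X α : M) : α ∈ hart X ↔ IsOrd α ∧ ∃ g, InjRel g α X :=
  (exists_hartogs X).choose_spec α

theorem isOrd_hart (X : M) : IsOrd (hart X) := by
  apply isOrd_of_trans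
  · intro α hα β hβ
    rw [mem_hart] at hα ⊢
    obtain ⟨h1, g, hg⟩ := hα
    refine ⟨h1.of_mem hβ, hg.restrict (fun x hx => h1.1 β hβ x hx) (fun x y hx hxy => ?_)⟩
    exact (FunRel.mem hg.1 hxy).2
  · intro α hα
    exact ((mem_hart X α).1 hα).1

theorem not_inj_hart (X g : M) : ¬ InjRel g (hart X) X := fun h =>
  mem_irrefl' _ ((mem_hart X _).2 ⟨isOrd_hart X, g, h⟩)

theorem hart_mono {X Y : M} (h : ∀ x, x ∈ X → x ∈ Y) : ∀ α, α ∈ hart X → α ∈ hart Y := by
  intro α hα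
  rw [mem_hart] at hα ⊢
  obtain ⟨h1, g, hg⟩ := hα
  exact ⟨h1, hg.restrict (fun _ hx => hx) (fun x y _ hxy => h _ (FunRel.mem hg.1 hxy).2)⟩

theorem eq_hart_iff (a X : M) : a = hart X ↔ ∀ α, α ∈ a ↔ IsOrd α ∧ ∃ g, InjRel g α X := by
  constructor
  · rintro rfl; exact mem_hart X
  · intro h; exact ext_mem fun α => (h α).trans (mem_hart X α).symm

end Vale.Agent.P323
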