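import Vale.Agent.P323.Wit

/-!
The main argument: the partition principle for ordinal images gives dependent choices.
-/

set_option linter.unusedSectionVars false
set_option synthInstance.maxSize 100000
set_option synthInstance.maxHeartbeats 2000000

namespace Vale.Agent.P323

universe u

variable {M : Type u} [ZFM M]

/-- `ξ` is a value at `x` of some witness. -/
abbrev Val (X R x ξ : M) : Prop := ∃ f c, Wit X R (suc (hart X)) f c ∧ opair x ξ ∈ f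

/-- `ξ` is the largest value at `x`. -/
abbrev MaxV (X R x ξ : M) : Prop := Val X R x ξ ∧ ∀ ξ', Val X R x ξ' → ¬ ξ ∈ ξ'

theorem suc_le_of_mem {α β : M} (hβ : IsOrd β) (h : α ∈ β) : OLe (suc α) β := by
  apply ord_le_of_sub (hβ.of_mem h).suc hβ
  intro x hx
  rw [mem_suc] at hx
  rcases hx with hx | rfl
  · exact hβ.1 α h x hx
  · exact h

theorem val_ord {X R x ξ : M} (h : Val X R x ξ) : IsOrd ξ := by
  obtain ⟨f, c, w, hf⟩ := h
  exact (isOrd_hart X).suc.of_mem (wit_mem w hf).2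

theorem exists_val {X R x : M} (hx : x ∈ X) : ∃ ξ, Val X R x ξ := by
  have hLam : (emp : M) ∈ suc (hart X) := by
    rw [mem_suc]
    exact ord_le_of_sub isOrd_emp (isOrd_hart X) (fun y hy => absurd hy (not_mem_emp y))
  obtain ⟨f, c, w, a, ha, _⟩ := glue (X := X) (R := R) (s := emp) (U := emp) (x := x) (Lam := emp)
    hx hLam (fun ξ w h => absurd h (not_mem_emp _)) (fun ξ w w' h => absurd h (not_mem_emp _))
    (fun ξ h => absurd h (not_mem_emp _)) (fun ζ h => absurd h (not_mem_emp _))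
  exact ⟨a, f, c, w, ha⟩

theorem exists_maxV (hPP : PPord M) {X R x : M} (hC : ¬ Chain X R) (hx : x ∈ X) :
    ∃ ξ, MaxV X R x ξ := by
  by_contra hno
  have hno' : ∀ ξ, Val X R x ξ → ∃ ξ', Val X R x ξ' ∧ ξ ∈ ξ' := by
    intro ξ hξ
    by_contra hbad
    apply hno
    refine ⟨ξ, hξ, fun ξ' h1 h2 => hbad ⟨ξ', h1, h2⟩⟩
  have hbd : ∀ ξ, Val X R x ξ → ξ ∈ hart X := by
    rintro ξ ⟨f, c, w, hf⟩
    exact wit_bound hC w hf
  let Y : M := sepS (fun w => ∃ f c a, w = opair f c ∧ Wit X R (suc (hart X)) f c ∧ opair x a ∈ f)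
    (prod (pow (prod X (suc (hart X)))) (pow (prod (pow X) X)))
  have hY : ∀ w, w ∈ Y ↔ ∃ f c a, w = opair f c ∧ Wit X R (suc (hart X)) f c ∧ opair x a ∈ f := by
    intro w
    simp only [Y, mem_sepS]
    refine ⟨fun h => h.2, fun h => ⟨?_, h⟩⟩
    obtain ⟨f, c, a, rfl, hw, _⟩ := h
    refine opair_mem_prod.2 ⟨?_, ?_⟩
    · rw [mem_pow]
      intro p hp
      obtain ⟨y, b, h1, h2, rfl⟩ := hw.1 p hp
      exact opair_mem_prod.2 ⟨h1, h2⟩
    · rw [mem_pow]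
      intro p hp
      obtain ⟨B, y, h1, h2, rfl⟩ := hw.2.2.1 p hp
      refine opair_mem_prod.2 ⟨?_, h2⟩
      rw [mem_pow]
      exact h1
  let Vl : M → M → Prop := fun w ξ => ∃ f c, w = opair f c ∧ opair x ξ ∈ f
  have hVd : DfnR Vl := ⟨by
    show Dfn (fun v : Nat → M => ∃ f c, v 0 = opair f c ∧ opair x (v 1) ∈ f)
    infer_instance⟩
  have hYV : ∀ w ξ, w ∈ Y → Vl w ξ → Val X R x ξ := by
    rintro w ξ hw ⟨f, c, rfl, hf⟩
    obtain ⟨f', c', a, e, hw', _⟩ := (hY _).1 hw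
    obtain ⟨rfl, rfl⟩ := opair_inj e
    exact ⟨f, c, hw', hf⟩
  have hVY : ∀ ξ, Val X R x ξ → ∃ w, w ∈ Y ∧ Vl w ξ := by
    rintro ξ ⟨f, c, w, hf⟩
    exact ⟨opair f c, (hY _).2 ⟨f, c, ξ, rfl, w, hf⟩, f, c, rfl, hf⟩
  obtain ⟨s, U, hs1, hs2, hU, hs4⟩ := selection hPP (Y := Y) Vl
    (by
      intro w hw
      obtain ⟨f, c, a, rfl, hw', ha⟩ := (hY _).1 hw
      exact ⟨a, ⟨f, c, rfl, ha⟩, (isOrd_hart X).suc.of_mem (wit_mem hw' ha).2⟩)
    (by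
      rintro w ξ ξ' hw ⟨f, c, rfl, h1⟩ ⟨f', c', e, h2⟩
      obtain ⟨rfl, rfl⟩ := opair_inj e
      obtain ⟨f2, c2, a, e2, hw', _⟩ := (hY _).1 hw
      obtain ⟨rfl, rfl⟩ := opair_inj e2
      exact hw'.2.1 _ _ _ h1 h2)
    (by
      intro w ξ hw hv
      obtain ⟨ξ', h1, h2⟩ := hno' ξ (hYV w ξ hw hv)
      obtain ⟨w', h3, h4⟩ := hVY ξ' h1
      exact ⟨w', ξ', h3, h4, h2⟩)
  let Lam : M := sepS (fun ζ => ∃ ξ, Val X R x ξ ∧ ζ ∈ ξ) (hart X)
  have hLamm : ∀ ζ, ζ ∈ Lam ↔ ∃ ξ, Val X R x ξ ∧ ζ ∈ ξ := by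
    intro ζ
    simp only [Lam, mem_sepS]
    refine ⟨fun h => h.2, fun h => ⟨?_, h⟩⟩
    obtain ⟨ξ, h1, h2⟩ := h
    exact (isOrd_hart X).1 ξ (hbd ξ h1) ζ h2
  have hLamo : IsOrd Lam := by
    apply isOrd_of_trans
    · intro ζ hζ ζ' hζ'
      rw [hLamm] at hζ ⊢
      obtain ⟨ξ, h1, h2⟩ := hζ
      exact ⟨ξ, h1, (val_ord h1).1 ζ h2 ζ' hζ'⟩
    · intro ζ hζ
      obtain ⟨ξ, h1, h2⟩ := (hLamm ζ).1 hζ
      exact (val_ord h1).of_mem h2
  have hLamL : Lam ∈ suc (hart X) := by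
    rw [mem_suc]
    apply ord_le_of_sub hLamo (isOrd_hart X)
    intro ζ hζ
    exact ((mem_sepS _ _ _).1 hζ).1
  obtain ⟨f, c, hw, a, ha, hle⟩ := glue (X := X) (R := R) (s := s) (U := U) (x := x) (Lam := Lam)
    hx hLamL
    (by
      intro ξ w h
      obtain ⟨h1, h2, _⟩ := hs1 ξ w h
      obtain ⟨f, c, a, rfl, h3, _⟩ := (hY _).1 h2
      exact ⟨h1, f, c, rfl, h3⟩)
    hs2 hU
    (by
      intro ζ hζ
      obtain ⟨ξ, h1, h2⟩ := (hLamm ζ).1 hζ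
      obtain ⟨w, h3, h4⟩ := hVY ξ h1
      obtain ⟨ξ', w', h5, h6⟩ := hs4 w ξ h3 h4
      obtain ⟨_, h7, f, c, rfl, h8⟩ := hs1 _ _ h5
      have hv' := hYV _ _ h7 ⟨f, c, rfl, h8⟩
      obtain ⟨f2, c2, a2, e, hw', _⟩ := (hY _).1 h7
      obtain ⟨rfl, rfl⟩ := opair_inj e
      obtain ⟨z, b, h9, h10, h11⟩ := hw'.2.2.2.2.2 x ξ' h8 ζ ((val_ord hv').1 ξ h6 ζ h2)
      exact ⟨ξ', f, c, z, b, h5, h9, h10, h11⟩)
  have hva : Val X R x a := ⟨f, c, hw, ha⟩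
  obtain ⟨ξ', h1, h2⟩ := hno' a hva
  have haLam : a ∈ Lam := (hLamm a).2 ⟨ξ', h1, h2⟩
  rcases hle with h3 | h3
  · exact mem_asymm' h3 haLam
  · rw [h3] at haLam
    exact mem_irrefl' _ haLam

theorem maxV_step {X R x y ξ η : M} (hC : ¬ Chain X R) (hx : x ∈ X) (hxy : opair x y ∈ R)
    (hξ : MaxV X R x ξ) (hη : MaxV X R y η) : η ∈ ξ := by
  obtain ⟨⟨f, c, w, hf⟩, _⟩ := hη
  have hηlm : η ∈ hart X := wit_bound hC w hf
  have hLam : suc η ∈ suc (hart X) := by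
    rw [mem_suc]
    exact suc_le_of_mem (isOrd_hart X) hηlm
  obtain ⟨f', c', w', a, ha, hle⟩ := glue (X := X) (R := R) (s := sing (opair emp (opair f c)))
    (U := sing emp) (x := x) (Lam := suc η) hx hLam
    (by
      intro ξ w h
      rw [mem_sing] at h
      obtain ⟨rfl, rfl⟩ := opair_inj h
      exact ⟨by simp, f, c, rfl, w⟩)
    (by
      intro ξ w1 w2 h1 h2
      rw [mem_sing] at h1 h2
      rw [(opair_inj h1).2, (opair_inj h2).2])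
    (by
      intro ξ h
      rw [mem_sing] at h
      rw [h]
      exact isOrd_emp)
    (by
      intro ζ hζ
      rw [mem_suc] at hζ
      exact ⟨emp, f, c, y, η, by simp, hf, hxy, hζ⟩)
  have hva : Val X R x a := ⟨f', c', w', ha⟩
  have hηa : η ∈ a := by
    have : η ∈ suc η := by simp
    exact ord_sub_of_le (val_ord hva) hle η this
  rcases ord_tricho (val_ord hva) (val_ord hξ.1) with h | h | h
  · exact (val_ord hξ.1).1 a h η hηa
  · rw [← h]; exact hηa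
  · exact absurd h (hξ.2 a hva)

/-- The partition principle for ordinal images yields infinite chains. -/
theorem exists_chain_of_PP (hPP : PPord M) {X R : M} (hne : ∃ x, x ∈ X)
    (hstep : ∀ x, x ∈ X → ∃ y, y ∈ X ∧ opair x y ∈ R) : Chain X R := by
  by_contra hC
  have hA : ∀ x, x ∈ X → ∃ ξ, MaxV X R x ξ := fun x hx => exists_maxV hPP hC hx
  let Q : M := sepS (fun ξ => ∃ x, x ∈ X ∧ MaxV X R x ξ) (hart X)
  have hQ : ∀ ξ, ξ ∈ Q ↔ ∃ x, x ∈ X ∧ MaxV X R x ξ := by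
    intro ξ
    simp only [Q, mem_sepS]
    refine ⟨fun h => h.2, fun h => ⟨?_, h⟩⟩
    obtain ⟨x, _, ⟨f, c, w, hf⟩, _⟩ := h
    exact wit_bound hC w hf
  obtain ⟨x0, hx0⟩ := hne
  obtain ⟨ξ0, hξ0⟩ := hA x0 hx0
  obtain ⟨μ, hμ, hmin⟩ := ord_min (S := Q)
    (fun ξ hξ => (isOrd_hart X).of_mem ((mem_sepS _ _ _).1 hξ).1) ⟨ξ0, (hQ ξ0).2 ⟨x0, hx0, hξ0⟩⟩
  obtain ⟨x, hx, hμx⟩ := (hQ μ).1 hμ
  obtain ⟨y, hy, hxy⟩ := hstep x hx
  obtain ⟨η, hη⟩ := hA y hy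
  have h1 : η ∈ μ := maxV_step hC hx hxy hμx hη
  rcases hmin η ((hQ η).2 ⟨y, hy, hη⟩) with h2 | h2
  · exact mem_asymm' h2 h1
  · rw [h2] at h1
    exact mem_irrefl' _ h1

theorem app_iff (f x y : M) : App (ZFM.E : M → M → Prop) f x y ↔ opair x y ∈ f := by
  constructor
  · rintro ⟨p, hp, h⟩
    rw [isOPair_iff] at h
    subst h
    exact hp
  · intro h
    exact ⟨_, h, (isOPair_iff _ _ _).2 rfl⟩

theorem isFun_iff (f X Y : M) : IsFun (ZFM.E : M → M → Prop) f X Y ↔ FunRel f X Y := by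
  simp only [IsFun, app_iff, isOPair_iff]
  exact Iff.rfl

theorem isEmp_iff (z : M) : IsEmp (ZFM.E : M → M → Prop) z ↔ z = emp := by
  constructor
  · intro h
    exact ext_mem fun y => ⟨fun hy => absurd hy (h y), fun hy => absurd hy (not_mem_emp y)⟩
  · rintro rfl y
    exact not_mem_emp y

theorem isSucc_iff (s x : M) : IsSucc (ZFM.E : M → M → Prop) s x ↔ s = suc x :=
  (suc_eq_iff s x).symm

theorem isInductive_iff (w : M) : IsInductive (ZFM.E : M → M → Prop) w ↔ RInd w := by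
  constructor
  · rintro ⟨⟨z, hz, hz0⟩, h⟩
    rw [isEmp_iff] at hz0
    subst hz0
    refine ⟨hz, fun x hx => ?_⟩
    obtain ⟨s, hs, hsx⟩ := h x hx
    rw [isSucc_iff] at hsx
    rw [← hsx]
    exact hs
  · rintro ⟨h1, h2⟩
    exact ⟨⟨emp, h1, (isEmp_iff _).2 rfl⟩, fun x hx => ⟨suc x, h2 x hx, (isSucc_iff _ _).2 rfl⟩⟩

theorem isOmega_om : IsOmega (ZFM.E : M → M → Prop) (om : M) := by
  refine ⟨(isInductive_iff _).2 om_ind, fun w' hw' n hn => ?_⟩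
  exact (mem_om n).1 hn w' ((isInductive_iff _).1 hw')

/-- The partition principle for ordinal images implies dependent choices, in the class form. -/
theorem dc_of_PPord (hPP : PPord M) : DC (ZFM.E : M → M → Prop) := by
  intro X R hne hstep
  obtain ⟨f, hf, hsteps⟩ := exists_chain_of_PP hPP (X := X) (R := R) hne (by
    intro x hx
    obtain ⟨y, hy, h⟩ := hstep x hx
    exact ⟨y, hy, (app_iff _ _ _).1 h⟩)
  refine ⟨om, f, isOmega_om, (isFun_iff _ _ _).2 hf, ?_⟩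
  intro n s x y hn hs h1 h2
  rw [isSucc_iff] at hs
  subst hs
  rw [app_iff] at h1 h2 ⊢
  exact hsteps n x y hn h1 h2

theorem ppord_of_pp (h : PP (ZFM.E : M → M → Prop)) : PPord M := by
  intro A κ π _ hs
  obtain ⟨j, hj⟩ := h A κ π ⟨(isFun_iff _ _ _).2 hs.1, fun y hy => by
    obtain ⟨x, hx⟩ := hs.2 y hy
    exact ⟨x, (app_iff _ _ _).2 hx⟩⟩
  refine ⟨j, (isFun_iff _ _ _).1 hj.1, fun x x' y h1 h2 => ?_⟩
  exact hj.2 x x' y ((app_iff _ _ _).2 h1) ((app_iff _ _ _).2 h2)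

end Vale.Agent.P323

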