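import Vale.Agent.P323.Sets

/-!
Von Neumann ordinals inside a model of ZF.
-/

set_option linter.unusedSectionVars false

namespace Vale.Agent.P323

universe u

variable {M : Type u} [ZFM M]

/-- Transitive set. -/
abbrev Trans (x : M) : Prop := ∀ y, y ∈ x → ∀ z, z ∈ y → z ∈ x

/-- Ordinal: a transitive set linearly ordered by membership. -/
abbrev IsOrd (x : M) : Prop := Trans x ∧ ∀ y, y ∈ x → ∀ z, z ∈ x → y ∈ z ∨ y = z ∨ z ∈ y

theorem isOrd_emp : IsOrd (emp : M) :=
  ⟨fun y hy => absurd hy (not_mem_emp y), fun y hy => absurd hy (not_mem_emp y)⟩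

theorem IsOrd.of_mem {x y : M} (hx : IsOrd x) (hy : y ∈ x) : IsOrd y := by
  have hsub : ∀ z, z ∈ y → z ∈ x := hx.1 y hy
  constructor
  · intro a ha b hb
    have hax := hsub a ha
    have hbx := hx.1 a hax b hb
    rcases hx.2 b hbx y hy with h | h | h
    · exact h
    · subst h; exact absurd ha (mem_asymm' hb)
    · exact absurd h (mem_cycle3 hb ha)
  · intro a ha b hb
    exact hx.2 a (hsub a ha) b (hsub b hb)

theorem IsOrd.suc {x : M} (hx : IsOrd x) : IsOrd (suc x) := by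
  constructor
  · intro y hy z hz
    rw [mem_suc] at hy ⊢
    rcases hy with hy | rfl
    · exact Or.inl (hx.1 y hy z hz)
    · exact Or.inl hz
  · intro y hy z hz
    rw [mem_suc] at hy hz
    rcases hy with hy | rfl <;> rcases hz with hz | rfl
    · exact hx.2 y hy z hz
    · exact Or.inl hy
    · exact Or.inr (Or.inr hz)
    · exact Or.inr (Or.inl rfl)

/-- A proper transitive subset of an ordinal is an element of it. -/
theorem IsOrd.mem_of_sub {α γ : M} (hα : IsOrd α) (hγ : Trans γ) (hsub : ∀ x, x ∈ γ → x ∈ α)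
    (hne : γ ≠ α) : γ ∈ α := by
  have hex : ∃ x, x ∈ sepS (fun x => ¬ x ∈ γ) α := by
    by_contra hno
    apply hne
    apply ext_mem
    intro x
    refine ⟨hsub x, fun hx => ?_⟩
    by_contra hxγ
    exact hno ⟨x, by simp [hx, hxγ]⟩
  obtain ⟨δ, hδ, hmin⟩ := found_min hex
  simp only [mem_sepS] at hδ hmin
  have : δ = γ := by
    apply ext_mem
    intro z
    constructor
    · intro hz
      by_contra hzγ
      exact hmin z hz ⟨hα.1 δ hδ.1 z hz, hzγ⟩
    · intro hz
      rcases hα.2 z (hsub z hz) δ hδ.1 with h | h | h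
      · exact h
      · subst h; exact absurd hz hδ.2
      · exact absurd (hγ z hz δ h) hδ.2
  rw [← this]
  exact hδ.1

/-- Intersection. -/
noncomputable def inter (a b : M) : M := sepS (fun x => x ∈ b) a

@[simp] theorem mem_inter (a b x : M) : x ∈ inter a b ↔ x ∈ a ∧ x ∈ b := by
  simp [inter]

theorem ord_tricho {α β : M} (hα : IsOrd α) (hβ : IsOrd β) : α ∈ β ∨ α = β ∨ β ∈ α := by
  have hγ : Trans (inter α β) := by
    intro y hy z hz
    rw [mem_inter] at hy ⊢
    exact ⟨hα.1 y hy.1 z hz, hβ.1 y hy.2 z hz⟩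
  by_cases h1 : inter α β = α
  · by_cases h2 : α = β
    · exact Or.inr (Or.inl h2)
    · refine Or.inl (hβ.mem_of_sub hα.1 (fun x hx => ?_) h2)
      rw [← h1] at hx
      exact ((mem_inter _ _ _).1 hx).2
  · by_cases h2 : inter α β = β
    · by_cases h3 : α = β
      · exact Or.inr (Or.inl h3)
      · refine Or.inr (Or.inr (hα.mem_of_sub hβ.1 (fun x hx => ?_) (Ne.symm h3)))
        rw [← h2] at hx
        exact ((mem_inter _ _ _).1 hx).1
    · exfalso
      have a1 := hα.mem_of_sub hγ (fun x hx => ((mem_inter _ _ _).1 hx).1) h1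
      have a2 := hβ.mem_of_sub hγ (fun x hx => ((mem_inter _ _ _).1 hx).2) h2
      exact mem_irrefl' _ ((mem_inter _ _ _).2 ⟨a1, a2⟩)

/-- Order on ordinals. -/
abbrev OLe (a b : M) : Prop := a ∈ b ∨ a = b

theorem ord_le_of_sub {α β : M} (hα : IsOrd α) (hβ : IsOrd β) (h : ∀ x, x ∈ α → x ∈ β) :
    OLe α β := by
  by_cases e : α = β
  · exact Or.inr e
  · exact Or.inl (hβ.mem_of_sub hα.1 h e)

theorem ord_sub_of_le {α β : M} (hβ : IsOrd β) (h : OLe α β) : ∀ x, x ∈ α → x ∈ β := by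
  rcases h with h | rfl
  · exact hβ.1 α h
  · exact fun _ hx => hx

theorem ord_le_trans {a b c : M} (hc : IsOrd c) (h1 : OLe a b) (h2 : OLe b c) : OLe a c := by
  rcases h2 with h2 | rfl
  · rcases h1 with h1 | rfl
    · exact Or.inl (hc.1 b h2 a h1)
    · exact Or.inl h2
  · exact h1

/-- A set of ordinals that is transitive is an ordinal. -/
theorem isOrd_of_trans {a : M} (h : Trans a) (ho : ∀ x, x ∈ a → IsOrd x) : IsOrd a :=
  ⟨h, fun y hy z hz => ord_tricho (ho y hy) (ho z hz)⟩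

/-- A nonempty set of ordinals has a least element. -/
theorem ord_min {S : M} (ho : ∀ x, x ∈ S → IsOrd x) (hne : ∃ x, x ∈ S) :
    ∃ μ, μ ∈ S ∧ ∀ ξ, ξ ∈ S → OLe μ ξ := by
  obtain ⟨μ, hμ, hmin⟩ := found_min hne
  refine ⟨μ, hμ, fun ξ hξ => ?_⟩
  rcases ord_tricho (ho μ hμ) (ho ξ hξ) with h | h | h
  · exact Or.inl h
  · exact Or.inr h
  · exact absurd hξ (hmin ξ h)

/-- The union of a set of ordinals is an ordinal. -/
theorem isOrd_uni {S : M} (ho : ∀ x, x ∈ S → IsOrd x) : IsOrd (uni S) := by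
  apply isOrd_of_trans
  · intro y hy z hz
    rw [mem_uni] at hy ⊢
    obtain ⟨t, ht, hyt⟩ := hy
    exact ⟨t, ht, (ho t ht).1 y hyt z hz⟩
  · intro x hx
    rw [mem_uni] at hx
    obtain ⟨t, ht, hxt⟩ := hx
    exact (ho t ht).of_mem hxt

/-- Relational form of a function from `a` to `b`. -/
abbrev FunRel (g a b : M) : Prop :=
  (∀ p, p ∈ g → ∃ x y, x ∈ a ∧ y ∈ b ∧ p = opair x y) ∧
  (∀ x, x ∈ a → ∃ y, opair x y ∈ g) ∧
  (∀ x y y', opair x y ∈ g → opair x y' ∈ g → y = y')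

/-- Relational form of an injection from `a` to `b`. -/
abbrev InjRel (g a b : M) : Prop :=
  FunRel g a b ∧ ∀ x x' y, opair x y ∈ g → opair x' y ∈ g → x = x'

theorem FunRel.mem {g a b x y : M} (h : FunRel g a b) (hxy : opair x y ∈ g) : x ∈ a ∧ y ∈ b := by
  obtain ⟨x', y', hx, hy, e⟩ := h.1 _ hxy
  obtain ⟨rfl, rfl⟩ := opair_inj e
  exact ⟨hx, hy⟩

/-- Restriction of an injection to a subset of the domain is an injection; with a smaller target
if the values on the subset lie there. -/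
theorem InjRel.restrict {g a b a' b' : M} (h : InjRel g a b) (ha : ∀ x, x ∈ a' → x ∈ a)
    (hb : ∀ x y, x ∈ a' → opair x y ∈ g → y ∈ b') :
    ∃ g', InjRel g' a' b' := by
  refine ⟨sepS (fun p => ∃ x y, x ∈ a' ∧ p = opair x y) g, ⟨?_, ?_, ?_⟩, ?_⟩
  · intro p hp
    rw [mem_sepS] at hp
    obtain ⟨hpg, x, y, hx, rfl⟩ := hp
    exact ⟨x, y, hx, hb x y hx hpg, rfl⟩
  · intro x hx
    obtain ⟨y, hy⟩ := h.1.2.1 x (ha x hx)
    exact ⟨y, by rw [mem_sepS]; exact ⟨hy, x, y, hx, rfl⟩⟩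
  · intro x y y' h1 h2
    rw [mem_sepS] at h1 h2
    exact h.1.2.2 x y y' h1.1 h2.1
  · intro x x' y h1 h2
    rw [mem_sepS] at h1 h2
    exact h.2 x x' y h1.1 h2.1

end Vale.Agent.P323
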