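import Vale.Agent.P323.Hart

/-!
Transfinite recursion along the ordinals, and the natural numbers.
-/

set_option linter.unusedSectionVars false
set_option synthInstance.maxSize 100000
set_option synthInstance.maxHeartbeats 2000000

namespace Vale.Agent.P323

universe u

variable {M : Type u} [ZFM M]

/-- `h` is the restriction of `g` to first coordinates in `ζ`. -/
abbrev IsRestr (g ζ h : M) : Prop := ∀ p, p ∈ h ↔ p ∈ g ∧ ∃ x y, x ∈ ζ ∧ p = opair x y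

/-- `g` is an attempt at the recursion with step `G` on the ordinal `ξ`. -/
abbrev Att (G : M → M) (g ξ : M) : Prop :=
  (∀ p, p ∈ g → ∃ x y, x ∈ ξ ∧ p = opair x y) ∧
  (∀ x y y', opair x y ∈ g → opair x y' ∈ g → y = y') ∧
  ∀ ζ, ζ ∈ ξ → ∃ h, IsRestr g ζ h ∧ opair ζ (G h) ∈ g

theorem att_agree {G : M → M} {g g' ξ ξ' : M} (hξ : IsOrd ξ) (hξ' : IsOrd ξ')
    (a : Att G g ξ) (a' : Att G g' ξ') :
    ∀ ζ, ζ ∈ ξ → ζ ∈ ξ' → ∀ y, opair ζ y ∈ g ↔ opair ζ y ∈ g' := by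
  by_contra hno
  have hne : ∃ x, x ∈ sepS (fun ζ => ζ ∈ ξ' ∧ ¬ ∀ y, opair ζ y ∈ g ↔ opair ζ y ∈ g') ξ := by
    simp only [not_forall] at hno
    obtain ⟨ζ, h1, h2, y, hy⟩ := hno
    refine ⟨ζ, ?_⟩
    rw [mem_sepS]
    refine ⟨h1, h2, ?_⟩
    intro hall
    exact hy (hall y)
  obtain ⟨μ, hμ, hmin⟩ := ord_min (fun x hx => hξ.of_mem ((mem_sepS _ _ _).1 hx).1) hne
  rw [mem_sepS] at hμ
  obtain ⟨h1, h2, h3⟩ := hμ
  have good : ∀ η, η ∈ μ → ∀ y, opair η y ∈ g ↔ opair η y ∈ g' := by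
    intro η hη
    by_contra hbad
    have : η ∈ sepS (fun ζ => ζ ∈ ξ' ∧ ¬ ∀ y, opair ζ y ∈ g ↔ opair ζ y ∈ g') ξ := by
      rw [mem_sepS]
      exact ⟨hξ.1 μ h1 η hη, hξ'.1 μ h2 η hη, hbad⟩
    rcases hmin η this with h4 | h4
    · exact mem_asymm' h4 hη
    · subst h4; exact mem_irrefl' _ hη
  obtain ⟨h, hh, hv⟩ := a.2.2 μ h1
  obtain ⟨h', hh', hv'⟩ := a'.2.2 μ h2
  have e : h = h' := ext_mem fun p => by
    rw [hh, hh']
    constructor
    · rintro ⟨hp, x, y, hx, rfl⟩; exact ⟨(good x hx y).1 hp, x, y, hx, rfl⟩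
    · rintro ⟨hp, x, y, hx, rfl⟩; exact ⟨(good x hx y).2 hp, x, y, hx, rfl⟩
  subst e
  apply h3
  intro y
  constructor
  · intro hy
    rw [a.2.1 μ y (G h) hy hv]
    exact hv'
  · intro hy
    rw [a'.2.1 μ y (G h) hy hv']
    exact hv

theorem att_eq {G : M → M} {g g' ξ : M} (hξ : IsOrd ξ) (a : Att G g ξ) (a' : Att G g' ξ) :
    g = g' := by
  apply ext_mem
  intro p
  constructor
  · intro hp
    obtain ⟨x, y, hx, rfl⟩ := a.1 p hp
    exact (att_agree hξ hξ a a' x hx hx y).1 hp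
  · intro hp
    obtain ⟨x, y, hx, rfl⟩ := a'.1 p hp
    exact (att_agree hξ hξ a a' x hx hx y).2 hp

theorem att_restrict {G : M → M} {g ξ ζ h : M} (hξ : IsOrd ξ) (a : Att G g ξ) (hζ : ζ ∈ ξ)
    (hr : IsRestr g ζ h) : Att G h ζ := by
  refine ⟨?_, ?_, ?_⟩
  · intro p hp
    obtain ⟨_, x, y, hx, rfl⟩ := (hr p).1 hp
    exact ⟨x, y, hx, rfl⟩
  · intro x y y' h1 h2
    exact a.2.1 x y y' ((hr _).1 h1).1 ((hr _).1 h2).1
  · intro η hη
    have hηξ := hξ.1 ζ hζ η hη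
    obtain ⟨h1, hr1, hv⟩ := a.2.2 η hηξ
    have hζo := hξ.of_mem hζ
    refine ⟨h1, ?_, (hr _).2 ⟨hv, η, _, hη, rfl⟩⟩
    intro p
    rw [hr1, hr]
    constructor
    · rintro ⟨hp, x, y, hx, rfl⟩
      exact ⟨⟨hp, x, y, hζo.1 η hη x hx, rfl⟩, x, y, hx, rfl⟩
    · rintro ⟨⟨hp, _⟩, x, y, hx, rfl⟩
      exact ⟨hp, x, y, hx, rfl⟩

/-- The recursion theorem on an ordinal. -/
theorem exists_att {G : M → M} [DfnF G] {Λ : M} (hΛ : IsOrd Λ) : ∃ g, Att G g Λ := by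
  by_contra hno
  have hne : ∃ x, x ∈ sepS (fun ξ => ¬ ∃ g, Att G g ξ) (suc Λ) :=
    ⟨Λ, by rw [mem_sepS]; exact ⟨by simp, hno⟩⟩
  obtain ⟨ξ, hξS, hmin⟩ := ord_min (fun x hx => hΛ.suc.of_mem ((mem_sepS _ _ _).1 hx).1) hne
  rw [mem_sepS] at hξS
  obtain ⟨hξsuc, hξno⟩ := hξS
  have hξ : IsOrd ξ := hΛ.suc.of_mem hξsuc
  have has : ∀ ζ, ζ ∈ ξ → ∃ h, Att G h ζ := by
    intro ζ hζ
    by_contra hbad
    have : ζ ∈ sepS (fun ξ => ¬ ∃ g, Att G g ξ) (suc Λ) := by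
      rw [mem_sepS]
      exact ⟨hΛ.suc.1 ξ hξsuc ζ hζ, hbad⟩
    rcases hmin ζ this with h4 | h4
    · exact mem_asymm' h4 hζ
    · subst h4; exact mem_irrefl' _ hζ
  obtain ⟨g, hg⟩ := repl_ex (fun ζ p => ∃ h, Att G h ζ ∧ p = opair ζ (G h)) ξ (by
    rintro ζ hζ p p' ⟨h, h1, rfl⟩ ⟨h', h2, rfl⟩
    rw [att_eq (hξ.of_mem hζ) h1 h2])
  have hgmem : ∀ x y, opair x y ∈ g ↔ x ∈ ξ ∧ ∃ h, Att G h x ∧ y = G h := by
    intro x y
    rw [hg]
    constructor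
    · rintro ⟨ζ, hζ, h, h1, e⟩
      obtain ⟨rfl, rfl⟩ := opair_inj e
      exact ⟨hζ, h, h1, rfl⟩
    · rintro ⟨hx, h, h1, rfl⟩
      exact ⟨x, hx, h, h1, rfl⟩
  apply hξno
  refine ⟨g, ?_, ?_, ?_⟩
  · intro p hp
    rw [hg] at hp
    obtain ⟨ζ, hζ, h, _, rfl⟩ := hp
    exact ⟨ζ, _, hζ, rfl⟩
  · intro x y y' h1 h2
    rw [hgmem] at h1 h2
    obtain ⟨hx, h, h3, rfl⟩ := h1
    obtain ⟨_, h', h4, rfl⟩ := h2
    rw [att_eq (hξ.of_mem hx) h3 h4]
  · intro ζ hζ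
    obtain ⟨h, hh⟩ := has ζ hζ
    refine ⟨h, ?_, (hgmem _ _).2 ⟨hζ, h, hh, rfl⟩⟩
    intro p
    have hζo := hξ.of_mem hζ
    have sub : ∀ x, x ∈ ζ → x ∈ ξ := hξ.1 ζ hζ
    constructor
    · intro hp
      obtain ⟨x, y, hx, rfl⟩ := hh.1 p hp
      obtain ⟨hx', hxr, hxv⟩ := hh.2.2 x hx
      have e := hh.2.1 x y _ hp hxv
      subst e
      exact ⟨(hgmem _ _).2 ⟨sub x hx, hx', att_restrict hζo hh hx hxr, rfl⟩, x, _, hx, rfl⟩
    · rintro ⟨hp, x, y, hx, rfl⟩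
      rw [hgmem] at hp
      obtain ⟨_, h2, h3, rfl⟩ := hp
      obtain ⟨hx', hxr, hxv⟩ := hh.2.2 x hx
      rw [att_eq (hζo.of_mem hx) h3 (att_restrict hζo hh hx hxr)]
      exact hxv

theorem suc_eq_iff (s x : M) : s = suc x ↔ ∀ y, y ∈ s ↔ y ∈ x ∨ y = x := by
  constructor
  · rintro rfl; exact mem_suc x
  · intro h; exact ext_mem fun y => (h y).trans (mem_suc x y).symm

instance DfnF.suc : DfnF (suc : M → M) :=
  ⟨Dfn.congr (Q := fun v : Nat → M => ∀ y, y ∈ v 0 ↔ y ∈ v 1 ∨ y = v 1) inferInstance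
    (fun v => suc_eq_iff (v 0) (v 1))⟩

/-- A binary relation on the model with definable graph. -/
class DfnR (Q : M → M → Prop) : Prop where
  out : Dfn (fun v : Nat → M => Q (v 0) (v 1))

theorem Dfn.subst2 (Q : M → M → Prop) (hQ : Dfn (fun v : Nat → M => Q (v 0) (v 1)))
    {s t : (Nat → M) → M} (hs : DfnT s) (ht : DfnT t) : Dfn (fun v => Q (s v) (t v)) := by
  have h1 : Dfn (fun w : Nat → M => w 1 = s (fun i => w (i + 2))) := hs.bind 1 2
  have h2 : Dfn (fun w : Nat → M => w 0 = t (fun i => w (i + 2))) := ht.bind 0 2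
  have h3 : Dfn (fun w : Nat → M => Q (w 1) (w 0)) :=
    Dfn.ren (P := fun v : Nat → M => Q (v 0) (v 1)) (fun n => match n with | 0 => 1 | _ => 0) hQ
  have h4 : Dfn (fun w : Nat → M => w 1 = s (fun i => w (i + 2)) ∧ w 0 = t (fun i => w (i + 2)) ∧ Q (w 1) (w 0)) :=
    @Dfn.and _ _ _ _ h1 (@Dfn.and _ _ _ _ h2 h3)
  have h5 : Dfn (fun v : Nat → M => ∃ a b, a = s v ∧ b = t v ∧ Q a b) :=
    @Dfn.ex _ _ (fun a v => ∃ b, a = s v ∧ b = t v ∧ Q a b)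
      (@Dfn.ex _ _ (fun b w => w 0 = s (tail w) ∧ b = t (tail w) ∧ Q (w 0) b) h4)
  exact h5.congr (fun v => by simp)

instance (priority := low) Dfn.ofR {Q : M → M → Prop} [h : DfnR Q] {s t : (Nat → M) → M}
    [hs : DfnT s] [ht : DfnT t] : Dfn (fun v => Q (s v) (t v)) :=
  Dfn.subst2 Q h.out hs ht

/-- Totalize a definable functional relation. -/
theorem exists_total (Gr : M → M → Prop) [hG : DfnR Gr]
    (hf : ∀ h a b, Gr h a → Gr h b → a = b) :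
    ∃ G : M → M, DfnF G ∧ ∀ h a, Gr h a → G h = a := by
  classical
  let G : M → M := fun h => if H : ∃ a, Gr h a then H.choose else emp
  have hG1 : ∀ h a, Gr h a → G h = a := by
    intro h a ha
    have H : ∃ a, Gr h a := ⟨a, ha⟩
    have e : G h = H.choose := dif_pos H
    rw [e]
    exact hf h _ _ H.choose_spec ha
  have hG2 : ∀ h, (¬ ∃ a, Gr h a) → G h = emp := fun h H => dif_neg H
  refine ⟨G, ⟨Dfn.congr (Q := fun v : Nat → M =>
      Gr (v 1) (v 0) ∨ ((¬ ∃ b, Gr (v 1) b) ∧ v 0 = emp)) inferInstance (fun v => ?_)⟩, hG1⟩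
  constructor
  · intro e
    by_cases H : ∃ a, Gr (v 1) a
    · obtain ⟨a, ha⟩ := H
      left
      rw [e, hG1 _ _ ha]
      exact ha
    · right
      exact ⟨H, by rw [e]; exact hG2 _ H⟩
  · rintro (h | ⟨h1, h2⟩)
    · exact (hG1 _ _ h).symm
    · rw [h2]; exact (hG2 _ h1).symm

/-- Relational form of inductive sets. -/
abbrev RInd (I : M) : Prop := emp ∈ I ∧ ∀ x, x ∈ I → suc x ∈ I

theorem exists_inductive : ∃ I : M, RInd I := by
  obtain ⟨w, ⟨z, hz, hz0⟩, hw⟩ := (ZFM.isZF (M := M)).infinity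
  have : z = (emp : M) := ext_mem fun y => ⟨fun h => absurd h (hz0 y), fun h => absurd h (not_mem_emp y)⟩
  subst this
  refine ⟨w, hz, fun x hx => ?_⟩
  obtain ⟨s, hs, hsx⟩ := hw x hx
  have : s = suc x := (suc_eq_iff s x).2 hsx
  rw [← this]
  exact hs

/-- The natural numbers of the model. -/
noncomputable def om : M := sepS (fun n : M => ∀ I : M, RInd I → n ∈ I) (exists_inductive (M := M)).choose

theorem mem_om (n : M) : n ∈ (om : M) ↔ ∀ I : M, RInd I → n ∈ I := by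
  rw [om, mem_sepS]
  exact ⟨fun h => h.2, fun h => ⟨h _ (exists_inductive (M := M)).choose_spec, h⟩⟩

theorem om_ind : RInd (om : M) := by
  constructor
  · rw [mem_om]; exact fun I hI => hI.1
  · intro x hx
    rw [mem_om] at hx ⊢
    exact fun I hI => hI.2 x (hx I hI)

theorem om_induction (P : M → Prop) [Dfn (fun v : Nat → M => P (v 0))] (h0 : P emp)
    (hs : ∀ n, n ∈ (om : M) → P n → P (suc n)) : ∀ n, n ∈ (om : M) → P n := by
  intro n hn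
  have hI : RInd (sepS P (om : M)) := by
    constructor
    · rw [mem_sepS]; exact ⟨om_ind.1, h0⟩
    · intro x hx
      rw [mem_sepS] at hx ⊢
      exact ⟨om_ind.2 x hx.1, hs x hx.1 hx.2⟩
  have := (mem_om n).1 hn _ hI
  exact ((mem_sepS _ _ _).1 this).2

theorem isOrd_of_mem_om : ∀ n, n ∈ (om : M) → IsOrd n :=
  om_induction (fun n => IsOrd n) isOrd_emp (fun _ _ h => h.suc)

theorem om_trans : ∀ n, n ∈ (om : M) → ∀ m, m ∈ n → m ∈ (om : M) :=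
  om_induction (fun n => ∀ m, m ∈ n → m ∈ (om : M)) (fun m hm => absurd hm (not_mem_emp m))
    (fun n hn h m hm => by
      rw [mem_suc] at hm
      rcases hm with hm | rfl
      · exact h m hm
      · exact hn)

theorem isOrd_om : IsOrd (om : M) :=
  isOrd_of_trans om_trans isOrd_of_mem_om

/-- Iterating a step function along the natural numbers. -/
theorem exists_chain {N x0 : M} (t : M → M) (Rl : M → M → Prop) [hR : DfnR Rl] (hx0 : x0 ∈ N)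
    (hRl : ∀ s, s ∈ N → ∀ y, Rl s y ↔ y = t s) (hRf : ∀ s y y', Rl s y → Rl s y' → y = y')
    (ht : ∀ s, s ∈ N → t s ∈ N) :
    ∃ f, FunRel f (om : M) N ∧ opair emp x0 ∈ f ∧
      ∀ n y, n ∈ (om : M) → opair n y ∈ f → opair (suc n) (t y) ∈ f := by
  let Gr : M → M → Prop := fun h a => (h = emp ∧ a = x0) ∨
    (h ≠ emp ∧ ∃ n y, opair n y ∈ h ∧ (∀ m z, opair m z ∈ h → OLe m n) ∧
      (∀ z, opair n z ∈ h → z = y) ∧ Rl y a)
  have hGr : DfnR Gr := ⟨by show Dfn (fun v : Nat → M => (v 0 = emp ∧ v 1 = x0) ∨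
    (v 0 ≠ emp ∧ ∃ n y, opair n y ∈ v 0 ∧ (∀ m z, opair m z ∈ v 0 → OLe m n) ∧
      (∀ z, opair n z ∈ v 0 → z = y) ∧ Rl y (v 1))); infer_instance⟩
  have hGf : ∀ h a b, Gr h a → Gr h b → a = b := by
    rintro h a b (⟨h1, h2⟩ | ⟨h1, h2⟩) (⟨h3, h4⟩ | ⟨h3, h4⟩)
    · rw [h2, h4]
    · exact absurd h1 h3
    · exact absurd h3 h1
    · obtain ⟨n, y, a1, a2, a3, a4⟩ := h2
      obtain ⟨n', y', b1, b2, b3, b4⟩ := h4
      have e : n = n' := by
        rcases a2 n' y' b1 with c | c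
        · rcases b2 n y a1 with d | d
          · exact absurd d (mem_asymm' c)
          · exact d
        · exact c.symm
      subst e
      have e2 := a3 y' b1
      subst e2
      exact hRf _ _ _ a4 b4
  obtain ⟨G, hGd, hG⟩ := exists_total Gr hGf
  obtain ⟨g, hg⟩ := exists_att (G := G) (isOrd_om (M := M))
  have h0 : opair emp x0 ∈ g := by
    obtain ⟨h, hh, hv⟩ := hg.2.2 emp om_ind.1
    have he : h = emp := ext_mem fun p => by
      rw [hh]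
      constructor
      · rintro ⟨_, x, y, hx, _⟩; exact absurd hx (not_mem_emp x)
      · intro hp; exact absurd hp (not_mem_emp p)
    have : G h = x0 := hG _ _ (Or.inl ⟨he, rfl⟩)
    rw [this] at hv
    exact hv
  have h1 : ∀ n y, n ∈ (om : M) → y ∈ N → opair n y ∈ g → opair (suc n) (t y) ∈ g := by
    intro n y hn hy hny
    obtain ⟨h, hh, hv⟩ := hg.2.2 (suc n) (om_ind.2 n hn)
    have hnyh : opair n y ∈ h := (hh _).2 ⟨hny, n, y, by simp, rfl⟩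
    have : G h = t y := by
      apply hG
      refine Or.inr ⟨?_, n, y, hnyh, ?_, ?_, (hRl y hy _).2 rfl⟩
      · intro he
        rw [he] at hnyh
        exact not_mem_emp _ hnyh
      · intro m z hm
        obtain ⟨_, x', y', hx', e⟩ := (hh _).1 hm
        obtain ⟨rfl, rfl⟩ := opair_inj e
        rw [mem_suc] at hx'
        exact hx'
      · intro z hz
        exact hg.2.1 n z y ((hh _).1 hz).1 hny
    rw [this] at hv
    exact hv
  have h2 : ∀ n, n ∈ (om : M) → ∃ y, y ∈ N ∧ opair n y ∈ g :=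
    om_induction (fun n => ∃ y, y ∈ N ∧ opair n y ∈ g) ⟨x0, hx0, h0⟩ (by
      rintro n hn ⟨y, hy, hny⟩
      exact ⟨t y, ht y hy, h1 n y hn hy hny⟩)
  refine ⟨g, ⟨?_, ?_, hg.2.1⟩, h0, ?_⟩
  · intro p hp
    obtain ⟨x, y, hx, rfl⟩ := hg.1 p hp
    obtain ⟨y', hy', hxy'⟩ := h2 x hx
    rw [hg.2.1 x y y' hp hxy']
    exact ⟨x, y', hx, hy', rfl⟩
  · intro x hx
    obtain ⟨y, _, hy⟩ := h2 x hx
    exact ⟨y, hy⟩
  · intro n y hn hy
    obtain ⟨y', hy', hxy'⟩ := h2 n hn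
    rw [hg.2.1 n y y' hy hxy'] 
    exact h1 n y' hn hy' hxy'

end Vale.Agent.P323
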