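import Vale.Agent.P323.Rec

/-!
From the partition principle for ordinal images: selection along unbounded sets of ordinals.
-/

set_option linter.unusedSectionVars false
set_option synthInstance.maxSize 100000
set_option synthInstance.maxHeartbeats 2000000

namespace Vale.Agent.P323

universe u

variable {M : Type u} [ZFM M]

instance instProdT {s t : (Nat → M) → M} [hs : DfnT s] [ht : DfnT t] :
    DfnT (fun v => prod (s v) (t v)) :=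
  DfnT.comp2 _ (Dfn.congr (Q := fun v : Nat → M =>
      ∀ z, z ∈ v 0 ↔ ∃ x y, x ∈ v 1 ∧ y ∈ v 2 ∧ z = opair x y) inferInstance
    (fun v => ⟨fun e z => by rw [e]; exact mem_prod _ _ _,
      fun h => ext_mem fun z => (h z).trans (mem_prod _ _ _).symm⟩)) hs ht

instance instHartF : DfnF (hart : M → M) :=
  ⟨Dfn.congr (Q := fun v : Nat → M => ∀ α, α ∈ v 0 ↔ IsOrd α ∧ ∃ g, InjRel g α (v 1)) inferInstance
    (fun v => eq_hart_iff (v 0) (v 1))⟩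

/-- The union of the range of a set of pairs. -/
noncomputable def rngU (h : M) : M :=
  sepS (fun b => ∃ x a, opair x a ∈ h ∧ b ∈ a) (uni (uni (uni h)))

theorem mem_rngU (h b : M) : b ∈ rngU h ↔ ∃ x a, opair x a ∈ h ∧ b ∈ a := by
  rw [rngU, mem_sepS]
  refine ⟨fun hb => hb.2, fun hb => ⟨?_, hb⟩⟩
  obtain ⟨x, a, h1, h2⟩ := hb
  simp only [mem_uni]
  refine ⟨a, ⟨upair x a, ⟨opair x a, h1, ?_⟩, by simp⟩, h2⟩
  rw [mem_opair]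
  exact Or.inr rfl

instance instRngUF : DfnF (rngU : M → M) :=
  ⟨Dfn.congr (Q := fun v : Nat → M => ∀ b, b ∈ v 0 ↔ ∃ x a, opair x a ∈ v 1 ∧ b ∈ a) inferInstance
    (fun v => ⟨fun e b => by rw [e]; exact mem_rngU _ _,
      fun h => ext_mem fun b => (h b).trans (mem_rngU _ _).symm⟩)⟩

/-- Relational form of a surjection. -/
abbrev SurjRel (f a b : M) : Prop := FunRel f a b ∧ ∀ y, y ∈ b → ∃ x, opair x y ∈ f

/-- The partition principle for surjections onto ordinals. -/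
abbrev PPord (M : Type u) [ZFM M] : Prop :=
  ∀ A κ π : M, IsOrd κ → SurjRel π A κ → ∃ j, InjRel j κ A

/-- Selection along an unbounded set of values. -/
theorem selection (hPP : PPord M) {Y : M} (Vl : M → M → Prop) [hR : DfnR Vl]
    (h1 : ∀ w, w ∈ Y → ∃ ξ, Vl w ξ ∧ IsOrd ξ)
    (h1' : ∀ w ξ ξ', w ∈ Y → Vl w ξ → Vl w ξ' → ξ = ξ')
    (h2 : ∀ w ξ, w ∈ Y → Vl w ξ → ∃ w' ξ', w' ∈ Y ∧ Vl w' ξ' ∧ ξ ∈ ξ') :
    ∃ s U : M, (∀ ξ w, opair ξ w ∈ s → ξ ∈ U ∧ w ∈ Y ∧ Vl w ξ) ∧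
      (∀ ξ w w', opair ξ w ∈ s → opair ξ w' ∈ s → w = w') ∧
      (∀ ξ, ξ ∈ U → IsOrd ξ) ∧
      (∀ w ξ, w ∈ Y → Vl w ξ → ∃ ξ' w', opair ξ' w' ∈ s ∧ ξ ∈ ξ') := by
  obtain ⟨V, hV⟩ := @repl_ex M _ Vl hR.out Y (fun x hx y y' a b => h1' x y y' hx a b)
  have hVo : ∀ ξ, ξ ∈ V → IsOrd ξ := by
    intro ξ hξ
    obtain ⟨w, hw, hv⟩ := (hV ξ).1 hξ
    obtain ⟨ξ', hv', ho⟩ := h1 w hw
    rw [h1' w ξ ξ' hw hv hv']
    exact ho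
  have hVv : ∀ w ξ, w ∈ Y → Vl w ξ → ξ ∈ V := fun w ξ hw hv => (hV ξ).2 ⟨w, hw, hv⟩
  have hΛo : IsOrd (uni V) := isOrd_uni hVo
  have hVΛ : ∀ w ξ, w ∈ Y → Vl w ξ → ξ ∈ uni V := by
    intro w ξ hw hv
    obtain ⟨w', ξ', hw', hv', hlt⟩ := h2 w ξ hw hv
    rw [mem_uni]
    exact ⟨ξ', hVv w' ξ' hw' hv', hlt⟩
  -- the step of the recursion
  let G : M → M := fun h => hart (Vale.Agent.P323.prod Y (rngU h))
  have hGd : DfnF G := ⟨by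
    show Dfn (fun v : Nat → M => v 0 = hart (Vale.Agent.P323.prod Y (rngU (v 1))))
    infer_instance⟩
  obtain ⟨g, hg⟩ := exists_att (G := G) hΛo
  -- restrictions
  let rs : M → M := fun ξ => sepS (fun p => ∃ x y, x ∈ ξ ∧ p = opair x y) g
  have hrs : ∀ ξ, IsRestr g ξ (rs ξ) := fun ξ p => mem_sepS _ _ _
  let C : M → M := fun ξ => G (rs ξ)
  have hC : ∀ ξ, ξ ∈ uni V → opair ξ (C ξ) ∈ g := by
    intro ξ hξ
    obtain ⟨h, hh, hv⟩ := hg.2.2 ξ hξ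
    have : h = rs ξ := ext_mem fun p => by rw [hh, hrs]
    show opair ξ (G (rs ξ)) ∈ g
    rw [← this]
    exact hv
  have hgC : ∀ ξ a, opair ξ a ∈ g → ξ ∈ uni V ∧ a = C ξ := by
    intro ξ a hp
    obtain ⟨x, y, hx, e⟩ := hg.1 _ hp
    obtain ⟨rfl, rfl⟩ := opair_inj e
    exact ⟨hx, hg.2.1 _ _ _ hp (hC _ hx)⟩
  have hCo : ∀ ξ, IsOrd (C ξ) := fun ξ => isOrd_hart _
  -- (a) values below lie in the union of the range of the restriction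
  have ha : ∀ ξ η, ξ ∈ uni V → η ∈ ξ → ∀ b, b ∈ C η → b ∈ rngU (rs ξ) := by
    intro ξ η hξ hη b hb
    rw [mem_rngU]
    exact ⟨η, C η, (hrs ξ _).2 ⟨hC η (hΛo.1 ξ hξ η hη), η, _, hη, rfl⟩, hb⟩
  -- (b) monotonicity
  have hb : ∀ ξ η, ξ ∈ uni V → OLe η ξ → ∀ b, b ∈ C η → b ∈ C ξ := by
    rintro ξ η hξ (hη | rfl) b hbη
    · refine hart_mono (fun z hz => ?_) b hbη
      obtain ⟨w, c, hw, hc, rfl⟩ := (mem_prod _ _ _).1 hz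
      refine opair_mem_prod.2 ⟨hw, ?_⟩
      rw [mem_rngU] at hc ⊢
      obtain ⟨x, a, hxa, hca⟩ := hc
      obtain ⟨hxag, x', y', hx', e⟩ := (hrs η _).1 hxa
      obtain ⟨rfl, rfl⟩ := opair_inj e
      exact ⟨x, a, (hrs ξ _).2 ⟨hxag, x, a, (hΛo.of_mem hξ).1 η hη x hx', rfl⟩, hca⟩
    · exact hbη
  -- the ordinal kappa
  have hκ : ∀ β, β ∈ rngU g ↔ ∃ ξ, ξ ∈ uni V ∧ β ∈ C ξ := by
    intro β
    rw [mem_rngU]
    constructor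
    · rintro ⟨x, a, h3, h4⟩
      obtain ⟨h5, rfl⟩ := hgC x a h3
      exact ⟨x, h5, h4⟩
    · rintro ⟨ξ, h3, h4⟩
      exact ⟨ξ, C ξ, hC ξ h3, h4⟩
  have hκo : IsOrd (rngU g) := by
    apply isOrd_of_trans
    · intro β hβ β' hβ'
      rw [hκ] at hβ ⊢
      obtain ⟨ξ, h3, h4⟩ := hβ
      exact ⟨ξ, h3, (hCo ξ).1 β h4 β' hβ'⟩
    · intro β hβ
      rw [hκ] at hβ
      obtain ⟨ξ, _, h4⟩ := hβ
      exact (hCo ξ).of_mem h4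
  -- the set A and the map onto kappa
  let A : M := sepS (fun p => ∃ w β ξ a, p = opair w β ∧ Vl w ξ ∧ opair ξ a ∈ g ∧ β ∈ a)
    (Vale.Agent.P323.prod Y (rngU g))
  have hA : ∀ w β, opair w β ∈ A ↔ w ∈ Y ∧ ∃ ξ, Vl w ξ ∧ ξ ∈ uni V ∧ β ∈ C ξ := by
    intro w β
    simp only [A, mem_sepS, opair_mem_prod]
    constructor
    · rintro ⟨⟨h3, _⟩, w', β', ξ, a, e, h4, h5, h6⟩
      obtain ⟨rfl, rfl⟩ := opair_inj e
      obtain ⟨h7, rfl⟩ := hgC _ _ h5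
      exact ⟨h3, ξ, h4, h7, h6⟩
    · rintro ⟨h3, ξ, h4, h5, h6⟩
      exact ⟨⟨h3, (hκ β).2 ⟨ξ, h5, h6⟩⟩, w, β, ξ, C ξ, rfl, h4, hC ξ h5, h6⟩
  have hAp : ∀ p, p ∈ A → ∃ w β, p = opair w β := by
    intro p hp
    obtain ⟨_, w, β, _, _, e, _⟩ := (mem_sepS _ _ _).1 hp
    exact ⟨w, β, e⟩
  let π : M := sepS (fun q => ∃ w β, q = opair (opair w β) β) (Vale.Agent.P323.prod A (rngU g))
  have hπ : ∀ p y, opair p y ∈ π ↔ p ∈ A ∧ y ∈ rngU g ∧ ∃ w, p = opair w y := by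
    intro p y
    simp only [π, mem_sepS, opair_mem_prod]
    constructor
    · rintro ⟨⟨h3, h4⟩, w, β, e⟩
      obtain ⟨rfl, rfl⟩ := opair_inj e
      exact ⟨h3, h4, w, rfl⟩
    · rintro ⟨h3, h4, w, rfl⟩
      exact ⟨⟨h3, h4⟩, w, y, rfl⟩
  have hsurj : SurjRel π A (rngU g) := by
    refine ⟨⟨?_, ?_, ?_⟩, ?_⟩
    · intro q hq
      obtain ⟨hq1, w, β, rfl⟩ := (mem_sepS _ _ _).1 hq
      obtain ⟨h3, h4⟩ := opair_mem_prod.1 hq1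
      exact ⟨_, _, h3, h4, rfl⟩
    · intro x hx
      obtain ⟨w, β, rfl⟩ := hAp x hx
      obtain ⟨_, ξ, _, h5, h6⟩ := (hA w β).1 hx
      exact ⟨β, (hπ _ _).2 ⟨hx, (hκ β).2 ⟨ξ, h5, h6⟩, w, rfl⟩⟩
    · intro x y y' h3 h4
      obtain ⟨_, _, w, rfl⟩ := (hπ _ _).1 h3
      obtain ⟨_, _, w', e⟩ := (hπ _ _).1 h4
      exact (opair_inj e).2
    · intro y hy
      obtain ⟨ξ, hξ, hyξ⟩ := (hκ y).1 hy
      rw [mem_uni] at hξ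
      obtain ⟨ξ', hξ', hlt⟩ := hξ
      obtain ⟨w, hw, hv⟩ := (hV ξ').1 hξ'
      have hξ'Λ := hVΛ w ξ' hw hv
      have hyξ' := hb ξ' ξ hξ'Λ (Or.inl hlt) y hyξ
      exact ⟨opair w y, (hπ _ _).2 ⟨(hA w y).2 ⟨hw, ξ', hv, hξ'Λ, hyξ'⟩, hy, w, rfl⟩⟩
  obtain ⟨j, hj⟩ := hPP A (rngU g) π hκo hsurj
  -- values of j
  have hjv : ∀ β, β ∈ rngU g → ∃ w β' ξ, opair β (opair w β') ∈ j ∧ w ∈ Y ∧ Vl w ξ ∧
      ξ ∈ uni V ∧ β' ∈ C ξ := by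
    intro β hβ
    obtain ⟨p, hp⟩ := hj.1.2.1 β hβ
    have hpA := (FunRel.mem hj.1 hp).2
    obtain ⟨w, β', rfl⟩ := hAp p hpA
    obtain ⟨h3, ξ, h4, h5, h6⟩ := (hA w β').1 hpA
    exact ⟨w, β', ξ, hp, h3, h4, h5, h6⟩
  -- unboundedness of the values hit
  have hunb : ∀ w0 ξ0, w0 ∈ Y → Vl w0 ξ0 → ∃ β w β' ξ, β ∈ rngU g ∧ opair β (opair w β') ∈ j ∧
      w ∈ Y ∧ Vl w ξ ∧ ξ0 ∈ ξ := by
    intro w0 ξ0 hw0 hv0
    obtain ⟨w1, ξ1, hw1, hv1, hlt⟩ := h2 w0 ξ0 hw0 hv0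
    have hξ1 := hVΛ w1 ξ1 hw1 hv1
    have hξ0 := hVΛ w0 ξ0 hw0 hv0
    by_contra hno
    have hsub : ∀ β, β ∈ C ξ1 → β ∈ rngU g := fun β hβ => (hκ β).2 ⟨ξ1, hξ1, hβ⟩
    obtain ⟨g', hg'⟩ := InjRel.restrict (b' := Vale.Agent.P323.prod Y (rngU (rs ξ1))) hj hsub (by
      intro β p hβ hp
      have hpA := (FunRel.mem hj.1 hp).2
      obtain ⟨w, β', rfl⟩ := hAp p hpA
      obtain ⟨h3, ξ, h4, h5, h6⟩ := (hA w β').1 hpA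
      have hle : OLe ξ ξ0 := by
        rcases ord_tricho (hΛo.of_mem h5) (hΛo.of_mem hξ0) with c | c | c
        · exact Or.inl c
        · exact Or.inr c
        · exact absurd ⟨β, w, β', ξ, hsub β hβ, hp, h3, h4, c⟩ hno
      exact opair_mem_prod.2 ⟨h3, ha ξ1 ξ0 hξ1 hlt β' (hb ξ0 ξ hξ0 hle β' h6)⟩)
    exact not_inj_hart _ _ hg'
  -- the selected witnesses
  let Sel : M → M → Prop := fun ξ w => ∃ β β', β ∈ rngU g ∧ opair β (opair w β') ∈ j ∧ Vl w ξ ∧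
    ∀ γ, γ ∈ β → ∀ w'' β'', opair γ (opair w'' β'') ∈ j → ¬ Vl w'' ξ
  let s : M := sepS (fun q => ∃ ξ w, q = opair ξ w ∧ (∃ β β', β ∈ rngU g ∧ opair β (opair w β') ∈ j ∧ Vl w ξ ∧
    ∀ γ, γ ∈ β → ∀ w'' β'', opair γ (opair w'' β'') ∈ j → ¬ Vl w'' ξ)) (Vale.Agent.P323.prod V Y)
  have hs : ∀ ξ w, opair ξ w ∈ s ↔ ξ ∈ V ∧ w ∈ Y ∧ Sel ξ w := by
    intro ξ w
    simp only [s, mem_sepS, opair_mem_prod]
    constructor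
    · rintro ⟨⟨h3, h4⟩, ξ', w', e, h5⟩
      obtain ⟨rfl, rfl⟩ := opair_inj e
      exact ⟨h3, h4, h5⟩
    · rintro ⟨h3, h4, h5⟩
      exact ⟨⟨h3, h4⟩, ξ, w, rfl, h5⟩
  refine ⟨s, V, ?_, ?_, hVo, ?_⟩
  · intro ξ w hq
    obtain ⟨h3, h4, _, _, _, _, h5, _⟩ := (hs ξ w).1 hq
    exact ⟨h3, h4, h5⟩
  · intro ξ w w' h3 h4
    obtain ⟨_, _, β, β', hβ, h5, h6, h7⟩ := (hs ξ w).1 h3
    obtain ⟨_, _, γ, γ', hγ, h8, h9, h10⟩ := (hs ξ w').1 h4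
    have e : β = γ := by
      rcases ord_tricho (hκo.of_mem hβ) (hκo.of_mem hγ) with c | c | c
      · exact absurd h6 (h10 β c w β' h5)
      · exact c
      · exact absurd h9 (h7 γ c w' γ' h8)
    subst e
    exact (opair_inj (hj.1.2.2 _ _ _ h5 h8)).1
  · intro w0 ξ0 hw0 hv0
    obtain ⟨β, w, β', ξ, hβ, h3, h4, h5, hlt⟩ := hunb w0 ξ0 hw0 hv0
    have hne : ∃ x, x ∈ sepS (fun b => ∃ w β', opair b (opair w β') ∈ j ∧ Vl w ξ) (rngU g) :=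
      ⟨β, (mem_sepS _ _ _).2 ⟨hβ, w, β', h3, h5⟩⟩
    obtain ⟨μ, hμ, hmin⟩ := ord_min (fun x hx => hκo.of_mem ((mem_sepS _ _ _).1 hx).1) hne
    rw [mem_sepS] at hμ
    obtain ⟨hμκ, w1, β1, h6, h7⟩ := hμ
    have hw1 : w1 ∈ Y := ((hA w1 β1).1 (FunRel.mem hj.1 h6).2).1
    refine ⟨ξ, w1, (hs ξ w1).2 ⟨hVv w1 ξ hw1 h7, hw1, μ, β1, hμκ, h6, h7, ?_⟩, hlt⟩
    intro γ hγ w'' β'' h8 h9
    have hγκ : γ ∈ rngU g := hκo.1 μ hμκ γ hγ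
    have := hmin γ ((mem_sepS _ _ _).2 ⟨hγκ, w'', β'', h8, h9⟩)
    rcases this with c | c
    · exact mem_asymm' c hγ
    · subst c; exact mem_irrefl' _ hγ

end Vale.Agent.P323
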