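import Vale.Agent.P323.Dfn

/-!
Basic sets inside a model of ZF.
-/

set_option linter.unusedSectionVars false

namespace Vale.Agent.P323

universe u

variable {M : Type u} [ZFM M]

theorem ext_mem {a b : M} (h : ∀ x, x ∈ a ↔ x ∈ b) : a = b :=
  (ZFM.isZF (M := M)).ext a b h

/-- Separation as a function. -/
noncomputable def sepS (P : M → Prop) [h : Dfn (fun v => P (v 0))] (a : M) : M :=
  Classical.choose (sep_ex P a)

@[simp] theorem mem_sepS (P : M → Prop) [h : Dfn (fun v => P (v 0))] (a x : M) :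
    x ∈ sepS P a ↔ x ∈ a ∧ P x :=
  Classical.choose_spec (sep_ex P a) x

/-- Some element of the model. -/
noncomputable def w0 : M := (ZFM.isZF (M := M)).infinity.choose

/-- The empty set. -/
noncomputable def emp : M := sepS (fun _ => False) (w0 (M := M))

@[simp] theorem not_mem_emp (x : M) : ¬ x ∈ (emp : M) := by
  simp [emp]

/-- Unordered pair. -/
noncomputable def upair (a b : M) : M := ((ZFM.isZF (M := M)).pairing a b).choose

@[simp] theorem mem_upair (a b x : M) : x ∈ upair a b ↔ x = a ∨ x = b :=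
  ((ZFM.isZF (M := M)).pairing a b).choose_spec x

/-- Singleton. -/
noncomputable def sing (a : M) : M := upair a a

@[simp] theorem mem_sing (a x : M) : x ∈ sing a ↔ x = a := by
  simp [sing]

/-- Kuratowski pair. -/
noncomputable def opair (a b : M) : M := upair (sing a) (upair a b)

theorem mem_opair (a b x : M) : x ∈ opair a b ↔ x = sing a ∨ x = upair a b := by
  simp [opair]

theorem sing_eq_sing {a b : M} (h : sing a = sing b) : a = b := by
  have : a ∈ sing b := by rw [← h]; simp
  simpa using this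

theorem opair_inj {a b c d : M} (h : opair a b = opair c d) : a = c ∧ b = d := by
  have h1 : sing a ∈ opair c d := by rw [← h, mem_opair]; exact Or.inl rfl
  have ac : a = c := by
    rw [mem_opair] at h1
    have hc : c ∈ sing a := by
      rcases h1 with h1 | h1
      · rw [h1]; simp
      · rw [h1]; simp
    have := (mem_sing a c).1 hc
    exact this.symm
  subst ac
  refine ⟨rfl, ?_⟩
  have h2 : upair a b ∈ opair a d := by rw [← h, mem_opair]; exact Or.inr rfl
  have h3 : upair a d ∈ opair a b := by rw [h, mem_opair]; exact Or.inr rfl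
  rw [mem_opair] at h2 h3
  have hb : b ∈ upair a b := by simp
  have hd : d ∈ upair a d := by simp
  rcases h2 with h2 | h2
  · rw [h2, mem_sing] at hb
    rcases h3 with h3 | h3
    · rw [h3, mem_sing] at hd
      rw [hb, hd]
    · rw [h3, mem_upair] at hd
      rcases hd with hd | hd
      · rw [hb, hd]
      · exact hd.symm
  · rw [h2, mem_upair] at hb
    rcases hb with hb | hb
    · rcases h3 with h3 | h3
      · rw [h3, mem_sing] at hd
        rw [hb, hd]
      · rw [h3, mem_upair] at hd
        rcases hd with hd | hd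
        · rw [hb, hd]
        · exact hd.symm
    · exact hb

@[simp] theorem opair_eq_opair {a b c d : M} : opair a b = opair c d ↔ a = c ∧ b = d :=
  ⟨opair_inj, fun h => by rw [h.1, h.2]⟩

theorem isOPair_iff (p a b : M) : IsOPair (ZFM.E : M → M → Prop) p a b ↔ p = opair a b := by
  constructor
  · intro h
    apply ext_mem
    intro z
    rw [mem_opair]
    refine (h z).trans (or_congr ?_ ?_)
    · constructor
      · intro hz; apply ext_mem; intro x; rw [mem_sing]; exact hz x
      · intro hz x; subst hz; exact mem_sing a x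
    · constructor
      · intro hz; apply ext_mem; intro x; rw [mem_upair]; exact hz x
      · intro hz x; subst hz; exact mem_upair a b x
  · intro h z
    subst h
    refine (mem_opair a b z).trans (or_congr ?_ ?_)
    · constructor
      · intro hz x; subst hz; exact mem_sing a x
      · intro hz; apply ext_mem; intro x; rw [mem_sing]; exact hz x
    · constructor
      · intro hz x; subst hz; exact mem_upair a b x
      · intro hz; apply ext_mem; intro x; rw [mem_upair]; exact hz x

theorem opair_graph : Dfn (fun v : Nat → M => v 0 = opair (v 1) (v 2)) :=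
  Dfn.congr (Q := fun v : Nat → M =>
      ∀ z, z ∈ v 0 ↔ (∀ x, x ∈ z ↔ x = v 1) ∨ (∀ x, x ∈ z ↔ x = v 1 ∨ x = v 2))
    inferInstance (fun v => (isOPair_iff (v 0) (v 1) (v 2)).symm)

instance DfnT.opair {s t : (Nat → M) → M} [hs : DfnT s] [ht : DfnT t] :
    DfnT (fun v => opair (s v) (t v)) :=
  DfnT.comp2 _ opair_graph hs ht

/-- Union. -/
noncomputable def uni (a : M) : M := ((ZFM.isZF (M := M)).union a).choose

@[simp] theorem mem_uni (a x : M) : x ∈ uni a ↔ ∃ y, y ∈ a ∧ x ∈ y :=
  ((ZFM.isZF (M := M)).union a).choose_spec x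

/-- Power set. -/
noncomputable def pow (a : M) : M := ((ZFM.isZF (M := M)).power a).choose

@[simp] theorem mem_pow (a x : M) : x ∈ pow a ↔ ∀ y, y ∈ x → y ∈ a :=
  ((ZFM.isZF (M := M)).power a).choose_spec x

/-- Binary union. -/
noncomputable def bun (a b : M) : M := uni (upair a b)

@[simp] theorem mem_bun (a b x : M) : x ∈ bun a b ↔ x ∈ a ∨ x ∈ b := by
  simp [bun]

/-- Successor. -/
noncomputable def suc (a : M) : M := bun a (sing a)

@[simp] theorem mem_suc (a x : M) : x ∈ suc a ↔ x ∈ a ∨ x = a := by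
  simp [suc]

/-- Cartesian product. -/
noncomputable def prod (a b : M) : M :=
  sepS (fun z => ∃ x y, x ∈ a ∧ y ∈ b ∧ z = opair x y) (pow (pow (bun a b)))

@[simp] theorem mem_prod (a b z : M) : z ∈ prod a b ↔ ∃ x y, x ∈ a ∧ y ∈ b ∧ z = opair x y := by
  simp only [prod, mem_sepS, and_iff_right_iff_imp]
  rintro ⟨x, y, hx, hy, rfl⟩
  rw [mem_pow]
  intro w hw
  rw [mem_opair] at hw
  rw [mem_pow]
  rcases hw with rfl | rfl
  · intro t ht; rw [mem_sing] at ht; subst ht; simp [hx]
  · intro t ht; rw [mem_upair] at ht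
    rcases ht with rfl | rfl
    · simp [hx]
    · simp [hy]

theorem opair_mem_prod {a b x y : M} : opair x y ∈ prod a b ↔ x ∈ a ∧ y ∈ b := by
  rw [mem_prod]
  constructor
  · rintro ⟨x', y', hx, hy, h⟩
    obtain ⟨rfl, rfl⟩ := opair_inj h
    exact ⟨hx, hy⟩
  · rintro ⟨hx, hy⟩
    exact ⟨x, y, hx, hy, rfl⟩

/-- The graph of a Lean function on a set, when its graph on that set is given by a definable
relation. -/
theorem exists_graph (a : M) (t : M → M) (Rl : M → M → Prop)
    [hR : Dfn (fun v : Nat → M => Rl (v 0) (v 1))]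
    (h : ∀ x, x ∈ a → ∀ y, Rl x y ↔ y = t x) :
    ∃ f : M, ∀ p, p ∈ f ↔ ∃ x, x ∈ a ∧ p = opair x (t x) := by
  have h1 : Dfn (fun w : Nat → M => Rl (w 1) (w 0)) :=
    Dfn.ren (P := fun v : Nat → M => Rl (v 0) (v 1)) (fun n => match n with | 0 => 1 | _ => 0) hR
  obtain ⟨f, hf⟩ := repl_ex (fun x p => ∃ y, Rl x y ∧ p = opair x y) a (by
    rintro x hx p p' ⟨y, hy, rfl⟩ ⟨y', hy', rfl⟩
    rw [(h x hx y).1 hy, (h x hx y').1 hy'])
  refine ⟨f, fun p => (hf p).trans (exists_congr fun x => and_congr_right fun hx => ?_)⟩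
  constructor
  · rintro ⟨y, hy, rfl⟩
    rw [(h x hx y).1 hy]
  · rintro rfl
    exact ⟨t x, (h x hx _).2 rfl, rfl⟩

theorem opair_mem_graph {f a : M} {t : M → M} (hf : ∀ p, p ∈ f ↔ ∃ x, x ∈ a ∧ p = opair x (t x))
    {x y : M} : opair x y ∈ f ↔ x ∈ a ∧ y = t x := by
  rw [hf]
  constructor
  · rintro ⟨x', hx', h⟩
    obtain ⟨rfl, rfl⟩ := opair_inj h
    exact ⟨hx', rfl⟩
  · rintro ⟨hx, rfl⟩
    exact ⟨x, hx, rfl⟩

/-- Foundation, in the form of an `∈`-minimal element. -/
theorem found_min {a : M} (h : ∃ x, x ∈ a) : ∃ x, x ∈ a ∧ ∀ y, y ∈ x → ¬ y ∈ a :=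
  (ZFM.isZF (M := M)).found a h

theorem mem_irrefl' (x : M) : ¬ x ∈ x := by
  intro h
  obtain ⟨y, hy, hmin⟩ := found_min (a := sing x) ⟨x, by simp⟩
  rw [mem_sing] at hy
  subst hy
  exact hmin y h (by simp)

theorem mem_asymm' {x y : M} (h : x ∈ y) : ¬ y ∈ x := by
  intro h'
  obtain ⟨z, hz, hmin⟩ := found_min (a := upair x y) ⟨x, by simp⟩
  rw [mem_upair] at hz
  rcases hz with rfl | rfl
  · exact hmin y h' (by simp)
  · exact hmin x h (by simp)

theorem mem_cycle3 {x y z : M} (h1 : x ∈ y) (h2 : y ∈ z) : ¬ z ∈ x := by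
  intro h3
  obtain ⟨w, hw, hmin⟩ := found_min (a := bun (upair x y) (sing z)) ⟨x, by simp⟩
  simp only [mem_bun, mem_upair, mem_sing] at hw hmin
  rcases hw with (rfl | rfl) | rfl
  · exact hmin z h3 (by simp)
  · exact hmin x h1 (by simp)
  · exact hmin y h2 (by simp)

end Vale.Agent.P323
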