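import Vale.Agent.P323.Select

/-!
Rank witnesses for a relation on a set.
-/

set_option linter.unusedSectionVars false
set_option synthInstance.maxSize 100000
set_option synthInstance.maxHeartbeats 2000000

namespace Vale.Agent.P323

universe u

variable {M : Type u} [ZFM M]

/-- A rank witness: `f` is a function from a subset of `X` to `L`, `c` is a choice function on the
nonempty subsets of the domain of `f`, and every value of `f` is justified by the relation `R`. -/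
abbrev Wit (X R L f c : M) : Prop :=
  (∀ p, p ∈ f → ∃ y a, y ∈ X ∧ a ∈ L ∧ p = opair y a) ∧
  (∀ y a a', opair y a ∈ f → opair y a' ∈ f → a = a') ∧
  (∀ p, p ∈ c → ∃ B y, (∀ z, z ∈ B → z ∈ X) ∧ y ∈ X ∧ p = opair B y) ∧
  (∀ B y y', opair B y ∈ c → opair B y' ∈ c → y = y') ∧
  (∀ B, (∀ y, y ∈ B → ∃ a, opair y a ∈ f) → (∃ y, y ∈ B) → ∃ y, y ∈ B ∧ opair B y ∈ c) ∧
  (∀ y a, opair y a ∈ f → ∀ ζ, ζ ∈ a → ∃ z b, opair z b ∈ f ∧ opair y z ∈ R ∧ OLe ζ b)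

/-- An infinite `R`-chain in `X`. -/
abbrev Chain (X R : M) : Prop :=
  ∃ f, FunRel f (om : M) X ∧
    ∀ n x y, n ∈ (om : M) → opair n x ∈ f → opair (suc n) y ∈ f → opair x y ∈ R

theorem wit_mem {X R L f c y a : M} (w : Wit X R L f c) (h : opair y a ∈ f) : y ∈ X ∧ a ∈ L := by
  obtain ⟨y', a', h1, h2, e⟩ := w.1 _ h
  obtain ⟨rfl, rfl⟩ := opair_inj e
  exact ⟨h1, h2⟩

/-- The choice made by `c` lies in the set. -/
theorem wit_choice {X R L f c B y : M} (w : Wit X R L f c)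
    (h1 : ∀ y, y ∈ B → ∃ a, opair y a ∈ f) (h2 : ∃ y, y ∈ B) (h3 : opair B y ∈ c) : y ∈ B := by
  obtain ⟨y', h4, h5⟩ := w.2.2.2.2.1 B h1 h2
  rw [w.2.2.2.1 B y y' h3 h5]
  exact h4

/-- Witness values stay below the Hartogs number, unless there is an infinite chain. -/
theorem wit_bound {X R f c x a : M} (hC : ¬ Chain X R) (w : Wit X R (suc (hart X)) f c)
    (h : opair x a ∈ f) : a ∈ hart X := by
  obtain ⟨hxX, haL⟩ := wit_mem w h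
  rw [mem_suc] at haL
  rcases haL with haL | rfl
  · exact haL
  · exfalso
    by_cases hall : ∀ γ, γ ∈ hart X → ∃ s, opair s γ ∈ f
    · -- an injection of the Hartogs number into X
      have hB : ∀ γ, γ ∈ hart X → ∃ y, y ∈ sepS (fun s => opair s γ ∈ f) X ∧
          opair (sepS (fun s => opair s γ ∈ f) X) y ∈ c := by
        intro γ hγ
        apply w.2.2.2.2.1
        · intro y hy
          exact ⟨γ, ((mem_sepS _ _ _).1 hy).2⟩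
        · obtain ⟨s, hs⟩ := hall γ hγ
          exact ⟨s, (mem_sepS _ _ _).2 ⟨(wit_mem w hs).1, hs⟩⟩
      let g : M := sepS (fun q => ∃ γ y B, q = opair γ y ∧ (∀ s, s ∈ B ↔ s ∈ X ∧ opair s γ ∈ f) ∧
        opair B y ∈ c) (prod (hart X) X)
      have hg : ∀ γ y, opair γ y ∈ g ↔ γ ∈ hart X ∧ y ∈ X ∧
          opair (sepS (fun s => opair s γ ∈ f) X) y ∈ c := by
        intro γ y
        simp only [g, mem_sepS, opair_mem_prod]
        constructor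
        · rintro ⟨⟨h1, h2⟩, γ', y', B, e, h3, h4⟩
          obtain ⟨rfl, rfl⟩ := opair_inj e
          have : B = sepS (fun s => opair s γ ∈ f) X :=
            ext_mem fun s => by rw [h3, mem_sepS]
          subst this
          exact ⟨h1, h2, h4⟩
        · rintro ⟨h1, h2, h3⟩
          exact ⟨⟨h1, h2⟩, γ, y, _, rfl, fun s => mem_sepS _ _ _, h3⟩
      apply not_inj_hart X g
      refine ⟨⟨?_, ?_, ?_⟩, ?_⟩
      · intro q hq
        obtain ⟨hq1, γ, y, B, rfl, _⟩ := (mem_sepS _ _ _).1 hq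
        obtain ⟨h1, h2⟩ := opair_mem_prod.1 hq1
        exact ⟨γ, y, h1, h2, rfl⟩
      · intro γ hγ
        obtain ⟨y, hy, hyc⟩ := hB γ hγ
        exact ⟨y, (hg _ _).2 ⟨hγ, ((mem_sepS _ _ _).1 hy).1, hyc⟩⟩
      · intro γ y y' h1 h2
        exact w.2.2.2.1 _ _ _ ((hg _ _).1 h1).2.2 ((hg _ _).1 h2).2.2
      · intro γ γ' y h1 h2
        obtain ⟨hγ, _, h3⟩ := (hg _ _).1 h1
        obtain ⟨hγ', _, h4⟩ := (hg _ _).1 h2
        obtain ⟨y1, hy1, hy1c⟩ := hB γ hγ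
        obtain ⟨y2, hy2, hy2c⟩ := hB γ' hγ'
        rw [w.2.2.2.1 _ _ _ h3 hy1c] at h4
        have e1 := w.2.2.2.1 _ _ _ h3 hy1c
        have e2 := w.2.2.2.1 _ _ _ ((hg _ _).1 h2).2.2 hy2c
        have h5 : opair y γ ∈ f := by rw [e1]; exact ((mem_sepS _ _ _).1 hy1).2
        have h6 : opair y γ' ∈ f := by rw [e2]; exact ((mem_sepS _ _ _).1 hy2).2
        exact w.2.1 _ _ _ h5 h6
    · -- a missing value gives an infinite chain
      simp only [not_forall] at hall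
      obtain ⟨γ, hγ, hmiss⟩ := hall
      have hmiss' : ∀ s, ¬ opair s γ ∈ f := fun s hs => hmiss ⟨s, hs⟩
      let N : M := sepS (fun s => ∃ b, opair s b ∈ f ∧ γ ∈ b) X
      have hN : ∀ s, s ∈ N ↔ s ∈ X ∧ ∃ b, opair s b ∈ f ∧ γ ∈ b := fun s => mem_sepS _ _ _
      have hx0 : x ∈ N := (hN x).2 ⟨hxX, _, h, hγ⟩
      have hstep : ∀ s, s ∈ N → ∃ z, z ∈ N ∧ opair s z ∈ R := by
        intro s hs
        obtain ⟨_, b, h1, h2⟩ := (hN s).1 hs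
        obtain ⟨z, b', h3, h4, h5⟩ := w.2.2.2.2.2 s b h1 γ h2
        rcases h5 with h5 | h5
        · exact ⟨z, (hN z).2 ⟨(wit_mem w h3).1, b', h3, h5⟩, h4⟩
        · rw [h5] at hmiss'
          exact absurd h3 (hmiss' z)
      let Rl : M → M → Prop := fun s y => ∃ B, (∀ z, z ∈ B ↔ z ∈ N ∧ opair s z ∈ R) ∧ opair B y ∈ c
      have hRd : DfnR Rl := ⟨by
        show Dfn (fun v : Nat → M => ∃ B, (∀ z, z ∈ B ↔ z ∈ N ∧ opair (v 0) z ∈ R) ∧ opair B (v 1) ∈ c)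
        infer_instance⟩
      have hRf : ∀ s y y', Rl s y → Rl s y' → y = y' := by
        rintro s y y' ⟨B, h1, h2⟩ ⟨B', h3, h4⟩
        have : B = B' := ext_mem fun z => (h1 z).trans (h3 z).symm
        subst this
        exact w.2.2.2.1 _ _ _ h2 h4
      have hRe : ∀ s, s ∈ N → ∃ y, Rl s y ∧ y ∈ N ∧ opair s y ∈ R := by
        intro s hs
        have hsub : ∀ y, y ∈ sepS (fun z => opair s z ∈ R) N → ∃ a, opair y a ∈ f := by
          intro y hy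
          obtain ⟨_, b, h1, _⟩ := (hN y).1 ((mem_sepS _ _ _).1 hy).1
          exact ⟨b, h1⟩
        obtain ⟨z, hz, hzR⟩ := hstep s hs
        obtain ⟨y, hy, hyc⟩ := w.2.2.2.2.1 (sepS (fun z => opair s z ∈ R) N) hsub
          ⟨z, (mem_sepS _ _ _).2 ⟨hz, hzR⟩⟩
        rw [mem_sepS] at hy
        exact ⟨y, ⟨_, fun z => mem_sepS _ _ _, hyc⟩, hy.1, hy.2⟩
      letI : Nonempty M := ⟨x⟩
      let t : M → M := fun s => Classical.epsilon (fun y => Rl s y ∧ y ∈ N ∧ opair s y ∈ R)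
      have ht : ∀ s, s ∈ N → Rl s (t s) ∧ t s ∈ N ∧ opair s (t s) ∈ R := fun s hs =>
        Classical.epsilon_spec (hRe s hs)
      obtain ⟨f', hf1, hf2, hf3⟩ := exists_chain t Rl hx0
        (fun s hs y => ⟨fun hy => hRf s y _ hy (ht s hs).1, fun hy => by rw [hy]; exact (ht s hs).1⟩)
        hRf (fun s hs => (ht s hs).2.1)
      apply hC
      refine ⟨f', ⟨?_, hf1.2.1, hf1.2.2⟩, ?_⟩
      · intro p hp
        obtain ⟨a', y', h1, h2, rfl⟩ := hf1.1 p hp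
        exact ⟨a', y', h1, ((hN _).1 h2).1, rfl⟩
      · intro n x' y' hn h1 h2
        have hx' : x' ∈ N := (FunRel.mem hf1 h1).2
        have := hf3 n x' hn h1
        rw [hf1.2.2 _ _ _ h2 this]
        exact (ht x' hx').2.2

/-- Gluing a family of witnesses, indexed by a set of ordinals, and raising the value at `x`. -/
theorem glue {X R s U x Lam : M} (hx : x ∈ X) (hLam : Lam ∈ suc (hart X))
    (hs1 : ∀ ξ w, opair ξ w ∈ s → ξ ∈ U ∧ ∃ f c, w = opair f c ∧ Wit X R (suc (hart X)) f c)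
    (hs2 : ∀ ξ w w', opair ξ w ∈ s → opair ξ w' ∈ s → w = w')
    (hU : ∀ ξ, ξ ∈ U → IsOrd ξ)
    (h3 : ∀ ζ, ζ ∈ Lam → ∃ ξ f c z b, opair ξ (opair f c) ∈ s ∧ opair z b ∈ f ∧
      opair x z ∈ R ∧ OLe ζ b) :
    ∃ f' c', Wit X R (suc (hart X)) f' c' ∧ ∃ a, opair x a ∈ f' ∧ OLe Lam a := by
  have hlm : IsOrd (hart X) := isOrd_hart X
  have hL : IsOrd (suc (hart X)) := hlm.suc
  have hWit : ∀ ξ f c, opair ξ (opair f c) ∈ s → Wit X R (suc (hart X)) f c := by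
    intro ξ f c h
    obtain ⟨_, f', c', e, hw⟩ := hs1 _ _ h
    obtain ⟨rfl, rfl⟩ := opair_inj e
    exact hw
  -- the values
  let Mem : M → M → Prop := fun y ζ => (y = x ∧ ζ ∈ Lam) ∨
    ∃ ξ f c a, opair ξ (opair f c) ∈ s ∧ opair y a ∈ f ∧ ζ ∈ a
  let val : M → M := fun y => sepS (fun ζ => (y = x ∧ ζ ∈ Lam) ∨
    ∃ ξ f c a, opair ξ (opair f c) ∈ s ∧ opair y a ∈ f ∧ ζ ∈ a) (suc (hart X))
  have hMemL : ∀ y ζ, Mem y ζ → ζ ∈ suc (hart X) := by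
    rintro y ζ (⟨_, h⟩ | ⟨ξ, f, c, a, h1, h2, h⟩)
    · exact hL.1 Lam hLam ζ h
    · exact hL.1 a (wit_mem (hWit _ _ _ h1) h2).2 ζ h
  have hval : ∀ y ζ, ζ ∈ val y ↔ Mem y ζ := by
    intro y ζ
    simp only [val, mem_sepS]
    exact ⟨fun h => h.2, fun h => ⟨hMemL y ζ h, h⟩⟩
  have hvalo : ∀ y, IsOrd (val y) := by
    intro y
    apply isOrd_of_trans
    · intro ζ hζ ζ' hζ'
      rw [hval] at hζ ⊢
      rcases hζ with ⟨e, h⟩ | ⟨ξ, f, c, a, h1, h2, h⟩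
      · exact Or.inl ⟨e, (hL.of_mem hLam).1 ζ h ζ' hζ'⟩
      · exact Or.inr ⟨ξ, f, c, a, h1, h2, (hL.of_mem (wit_mem (hWit _ _ _ h1) h2).2).1 ζ h ζ' hζ'⟩
    · intro ζ hζ
      exact hL.of_mem (hMemL y ζ ((hval y ζ).1 hζ))
  have hnotlm : ∀ a, a ∈ suc (hart X) → ¬ hart X ∈ a := by
    intro a ha h
    rw [mem_suc] at ha
    rcases ha with ha | rfl
    · exact mem_asymm' ha h
    · exact mem_irrefl' _ h
  have hvalL : ∀ y, val y ∈ suc (hart X) := by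
    intro y
    rw [mem_suc]
    apply ord_le_of_sub (hvalo y) hlm
    intro ζ hζ
    have h1 := (hval y ζ).1 hζ
    have h2 := hMemL y ζ h1
    rw [mem_suc] at h2
    rcases h2 with h2 | rfl
    · exact h2
    · exfalso
      rcases h1 with ⟨_, h⟩ | ⟨ξ, f, c, a, h4, h5, h⟩
      · exact hnotlm _ hLam h
      · exact hnotlm _ (wit_mem (hWit _ _ _ h4) h5).2 h
  have hmono : ∀ ξ f c z b, opair ξ (opair f c) ∈ s → opair z b ∈ f → OLe b (val z) := by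
    intro ξ f c z b h1 h2
    apply ord_le_of_sub (hL.of_mem (wit_mem (hWit _ _ _ h1) h2).2) (hvalo z)
    intro e he
    exact (hval z e).2 (Or.inr ⟨ξ, f, c, b, h1, h2, he⟩)
  -- the domain and the new function
  let D : M := sepS (fun y => y = x ∨ ∃ ξ f c a, opair ξ (opair f c) ∈ s ∧ opair y a ∈ f) X
  have hD : ∀ y, y ∈ D ↔ y ∈ X ∧ (y = x ∨ ∃ ξ f c a, opair ξ (opair f c) ∈ s ∧ opair y a ∈ f) :=
    fun y => mem_sepS _ _ _
  obtain ⟨f', hf'⟩ := exists_graph D val (fun y a => ∀ ζ, ζ ∈ a ↔ ζ ∈ suc (hart X) ∧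
      ((y = x ∧ ζ ∈ Lam) ∨ ∃ ξ f c a', opair ξ (opair f c) ∈ s ∧ opair y a' ∈ f ∧ ζ ∈ a')) (by
    intro y _ a
    constructor
    · intro h
      exact ext_mem fun ζ => (h ζ).trans (by simp only [val, mem_sepS])
    · rintro rfl ζ
      simp only [val, mem_sepS])
  have hf'm : ∀ y a, opair y a ∈ f' ↔ y ∈ D ∧ a = val y := fun y a => opair_mem_graph hf'
  -- the new choice function
  let RlC : M → M → Prop := fun B y => (x ∈ B ∧ y = x) ∨ (¬ x ∈ B ∧ ∃ ξ f c B0,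
    opair ξ (opair f c) ∈ s ∧ (∀ z, z ∈ B0 ↔ z ∈ B ∧ ∃ a, opair z a ∈ f) ∧ (∃ z, z ∈ B0) ∧
    (∀ η f1 c1, opair η (opair f1 c1) ∈ s → η ∈ ξ → ∀ z, z ∈ B → ∀ a, ¬ opair z a ∈ f1) ∧
    opair B0 y ∈ c)
  have hRlCd : Dfn (fun v : Nat → M => RlC (v 0) (v 1)) := by
    show Dfn (fun v : Nat → M => (x ∈ v 0 ∧ v 1 = x) ∨ (¬ x ∈ v 0 ∧ ∃ ξ f c B0,
      opair ξ (opair f c) ∈ s ∧ (∀ z, z ∈ B0 ↔ z ∈ v 0 ∧ ∃ a, opair z a ∈ f) ∧ (∃ z, z ∈ B0) ∧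
      (∀ η f1 c1, opair η (opair f1 c1) ∈ s → η ∈ ξ → ∀ z, z ∈ v 0 → ∀ a, ¬ opair z a ∈ f1) ∧
      opair B0 (v 1) ∈ c))
    infer_instance
  have hRlCf : ∀ B y y', RlC B y → RlC B y' → y = y' := by
    rintro B y y' (⟨h1, rfl⟩ | ⟨h1, h2⟩) (⟨h4, rfl⟩ | ⟨h4, h5⟩)
    · rfl
    · exact absurd h1 h4
    · exact absurd h4 h1
    · obtain ⟨ξ, f, c, B0, a1, a2, ⟨z, hz⟩, a4, a5⟩ := h2
      obtain ⟨ξ', f2, c2, B1, b1, b2, ⟨z', hz'⟩, b4, b5⟩ := h5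
      obtain ⟨hz1, a, ha⟩ := (a2 z).1 hz
      obtain ⟨hz1', a', ha'⟩ := (b2 z').1 hz'
      have e : ξ = ξ' := by
        rcases ord_tricho (hU ξ (hs1 _ _ a1).1) (hU ξ' (hs1 _ _ b1).1) with c' | c' | c'
        · exact absurd ha (b4 ξ f c a1 c' z hz1 a)
        · exact c'
        · exact absurd ha' (a4 ξ' f2 c2 b1 c' z' hz1' a')
      subst e
      obtain ⟨rfl, rfl⟩ := opair_inj (hs2 _ _ _ a1 b1)
      have : B0 = B1 := ext_mem fun z => (a2 z).trans (b2 z).symm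
      subst this
      exact (hWit _ _ _ a1).2.2.2.1 _ _ _ a5 b5
  let DB : M := sepS (fun B => (∃ y, y ∈ B) ∧ ∀ y, y ∈ B → y ∈ D) (pow X)
  have hDB : ∀ B, B ∈ DB ↔ (∃ y, y ∈ B) ∧ ∀ y, y ∈ B → y ∈ D := by
    intro B
    simp only [DB, mem_sepS, mem_pow]
    exact ⟨fun h => h.2, fun h => ⟨fun y hy => ((hD y).1 (h.2 y hy)).1, h⟩⟩
  have hRlCe : ∀ B, B ∈ DB → ∃ y, RlC B y ∧ y ∈ B := by
    intro B hB
    obtain ⟨⟨y0, hy0⟩, hBD⟩ := (hDB B).1 hB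
    by_cases hxB : x ∈ B
    · exact ⟨x, Or.inl ⟨hxB, rfl⟩, hxB⟩
    · have hne : ∃ ξ, ξ ∈ sepS (fun ξ => ∃ f c z a, opair ξ (opair f c) ∈ s ∧ z ∈ B ∧ opair z a ∈ f) U := by
        rcases ((hD y0).1 (hBD y0 hy0)).2 with h | ⟨ξ, f, c, a, h1, h2⟩
        · rw [h] at hy0; exact absurd hy0 hxB
        · exact ⟨ξ, (mem_sepS _ _ _).2 ⟨(hs1 _ _ h1).1, f, c, y0, a, h1, hy0, h2⟩⟩
      obtain ⟨ξ, hξ, hmin⟩ := ord_min (fun x hx => hU x ((mem_sepS _ _ _).1 hx).1) hne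
      rw [mem_sepS] at hξ
      obtain ⟨hξU, f, c, z0, a0, h1, hz0, ha0⟩ := hξ
      have hw := hWit _ _ _ h1
      obtain ⟨y, hy, hyc⟩ := hw.2.2.2.2.1 (sepS (fun z => ∃ a, opair z a ∈ f) B)
        (fun y hy => ((mem_sepS _ _ _).1 hy).2) ⟨z0, (mem_sepS _ _ _).2 ⟨hz0, a0, ha0⟩⟩
      refine ⟨y, Or.inr ⟨hxB, ξ, f, c, _, h1, fun z => mem_sepS _ _ _,
        ⟨z0, (mem_sepS _ _ _).2 ⟨hz0, a0, ha0⟩⟩, ?_, hyc⟩, ((mem_sepS _ _ _).1 hy).1⟩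
      intro η f1 c1 h2 hη z hz a ha
      have := hmin η ((mem_sepS _ _ _).2 ⟨(hs1 _ _ h2).1, f1, c1, z, a, h2, hz, ha⟩)
      rcases this with c' | c'
      · exact mem_asymm' c' hη
      · subst c'; exact mem_irrefl' _ hη
  letI : Nonempty M := ⟨x⟩
  let tc : M → M := fun B => Classical.epsilon (fun y => RlC B y ∧ y ∈ B)
  have htc : ∀ B, B ∈ DB → RlC B (tc B) ∧ tc B ∈ B := fun B hB => Classical.epsilon_spec (hRlCe B hB)
  obtain ⟨c', hc'⟩ := @exists_graph M _ DB tc RlC hRlCd (fun B hB y =>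
    ⟨fun hy => hRlCf B y _ hy (htc B hB).1, fun hy => by rw [hy]; exact (htc B hB).1⟩)
  have hc'm : ∀ B y, opair B y ∈ c' ↔ B ∈ DB ∧ y = tc B := fun B y => opair_mem_graph hc'
  refine ⟨f', c', ⟨?_, ?_, ?_, ?_, ?_, ?_⟩, val x, (hf'm _ _).2 ⟨(hD x).2 ⟨hx, Or.inl rfl⟩, rfl⟩, ?_⟩
  · intro p hp
    obtain ⟨y, hy, rfl⟩ := (hf' p).1 hp
    exact ⟨y, val y, ((hD y).1 hy).1, hvalL y, rfl⟩
  · intro y a a' h1 h2
    rw [((hf'm _ _).1 h1).2, ((hf'm _ _).1 h2).2]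
  · intro p hp
    obtain ⟨B, hB, rfl⟩ := (hc' p).1 hp
    have hBX : ∀ z, z ∈ B → z ∈ X := fun z hz => ((hD z).1 (((hDB B).1 hB).2 z hz)).1
    exact ⟨B, tc B, hBX, hBX _ (htc B hB).2, rfl⟩
  · intro B y y' h1 h2
    rw [((hc'm _ _).1 h1).2, ((hc'm _ _).1 h2).2]
  · intro B h1 h2
    have hB : B ∈ DB := (hDB B).2 ⟨h2, fun y hy => by
      obtain ⟨a, ha⟩ := h1 y hy
      exact ((hf'm _ _).1 ha).1⟩
    exact ⟨tc B, (htc B hB).2, (hc'm _ _).2 ⟨hB, rfl⟩⟩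
  · intro y a hya ζ hζ
    obtain ⟨hyD, rfl⟩ := (hf'm _ _).1 hya
    rcases (hval y ζ).1 hζ with ⟨e, h⟩ | ⟨ξ, f, c, a', h1, h2, h⟩
    · obtain ⟨ξ, f, c, z, b, h4, h5, h6, h7⟩ := h3 ζ h
      rw [e]
      have hzD : z ∈ D := (hD z).2 ⟨(wit_mem (hWit _ _ _ h4) h5).1, Or.inr ⟨ξ, f, c, b, h4, h5⟩⟩
      exact ⟨z, val z, (hf'm _ _).2 ⟨hzD, rfl⟩, h6, ord_le_trans (hvalo z) h7 (hmono _ _ _ _ _ h4 h5)⟩
    · obtain ⟨z, b, h4, h5, h6⟩ := (hWit _ _ _ h1).2.2.2.2.2 y a' h2 ζ h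
      have hzD : z ∈ D := (hD z).2 ⟨(wit_mem (hWit _ _ _ h1) h4).1, Or.inr ⟨ξ, f, c, b, h1, h4⟩⟩
      exact ⟨z, val z, (hf'm _ _).2 ⟨hzD, rfl⟩, h5, ord_le_trans (hvalo z) h6 (hmono _ _ _ _ _ h1 h4)⟩
  · apply ord_le_of_sub (hL.of_mem hLam) (hvalo x)
    intro ζ hζ
    exact (hval x ζ).2 (Or.inl ⟨rfl, hζ⟩)

end Vale.Agent.P323
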